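import Vale.Agent.P234.Taylor

/-!
# Calculus at a conjugate vector  (TASK; calculus in normed spaces)

`b` = end point, `π` = end momentum, `fv` = Gauss lemma, `fderiv b w k = 0`.
`conj_energy`: near `w`, `fderiv b` and `π` are Lipschitz (`ContDiffAt.exists_lipschitzOnWith`), so
`‖fderiv b u' k‖ ≤ L ‖u' - w‖ ‖k‖`.  Mean value inequality on the segment from `0` to `ε` for
`s ↦ b (u + s • k)` and for `s ↦ Q (u + s•k) (u + s•k) / 2 - π (u + ε•k) (b (u + s•k))`, whose derivative is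
`(π (u + s•k) - π (u + ε•k)) (fderiv b (u + s•k) k)`.
`conj_nc`: with `u = w + ε • k`, compare `up` at `(u, β)` with `low` at `b u - b w + β`:
`(π w - π u) β ≤ C₁ ‖β‖² + C₂ |ε|³` for small `ε`, `β`.  Take `β = ε μ • v`, divide by `ε²`, let `ε → 0⁺`:
`-μ (fderiv π w k) v ≤ C₁ μ² ‖v‖²` for all `μ`, so `fderiv π w k v = 0`.
`conj_blow`: fix `u` near `w`, `δ = ‖u - w‖`; apply `up` at `(u + ε•k, t•ξ, b u - b (u + ε•k))` with
`ε = λ t`, `t → 0`, and `peano2`:  `D²h ξ ξ / 2 ≤ C ‖ξ‖² - λ Q k ξ + C₂ λ² δ`; choose `λ = Q k ξ / (2 C₂ δ)`.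
-/

namespace Vale.Agent.P234

open scoped ContDiff Topology
open Set Filter

variable {E : Type*} [NormedAddCommGroup E] [NormedSpace ℝ E] [FiniteDimensional ℝ E]
  {Q : E →L[ℝ] E →L[ℝ] ℝ} {b : E → E} {π : E → E →L[ℝ] ℝ} {w k : E}

theorem conj_energy (hQ : ∀ u v, Q u v = Q v u) (hb : ContDiffAt ℝ 2 b w)
    (hπ : ContDiffAt ℝ 1 π w) (fv : ∀ᶠ u in 𝓝 w, ∀ h, π u (fderiv ℝ b u h) = Q u h)
    (hk : fderiv ℝ b w k = 0) : ∃ C > 0, ∀ᶠ z : E × ℝ in 𝓝 (w, 0),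
      ‖b (z.1 + z.2 • k) - b z.1‖ ≤ C * |z.2| * (‖z.1 - w‖ + |z.2|) ∧
      |Q (z.1 + z.2 • k) (z.1 + z.2 • k) / 2 - Q z.1 z.1 / 2 -
        π (z.1 + z.2 • k) (b (z.1 + z.2 • k) - b z.1)| ≤ C * z.2 ^ 2 * (‖z.1 - w‖ + |z.2|) := by
  obtain ⟨L1, s1, hs1, hL1⟩ :=
    (hb.fderiv_right (m := 1) (by norm_num)).exists_lipschitzOnWith
  obtain ⟨L2, s2, hs2, hL2⟩ := hπ.exists_lipschitzOnWith
  have hd : ∀ᶠ u in 𝓝 w, DifferentiableAt ℝ b u :=
    (hb.eventually (by simp)).mono fun u hu => hu.differentiableAt (by norm_num)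
  obtain ⟨r, hr, hball⟩ := Metric.eventually_nhds_iff.1
    (hd.and (fv.and ((eventually_mem_set.2 hs1).and (eventually_mem_set.2 hs2))))
  have hw1 : w ∈ s1 := mem_of_mem_nhds hs1
  set M : ℝ := L1 * (1 + ‖k‖) * ‖k‖ with hM
  have hM0 : 0 ≤ M := by positivity
  have hN0 : 0 ≤ (L2 : ℝ) * ‖k‖ * M := by positivity
  refine ⟨M + L2 * ‖k‖ * M + 1, by positivity, ?_⟩
  have hc : ContinuousAt (fun z : E × ℝ => ‖z.1 - w‖ + |z.2| * ‖k‖) (w, 0) := by fun_prop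
  have hev : ∀ᶠ z : E × ℝ in 𝓝 (w, 0), ‖z.1 - w‖ + |z.2| * ‖k‖ < r :=
    hc.eventually_lt continuousAt_const (by simpa using hr)
  filter_upwards [hev] with z hz
  obtain ⟨u, ε⟩ := z
  simp only at hz ⊢
  have habs : ∀ s ∈ uIcc (0 : ℝ) ε, |s| ≤ |ε| := fun s hs => by
    simpa using abs_sub_left_of_mem_uIcc hs
  have habs' : ∀ s ∈ uIcc (0 : ℝ) ε, |s - ε| ≤ |ε| := fun s hs => by
    have := abs_sub_right_of_mem_uIcc hs
    rw [abs_sub_comm]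
    simpa using this
  have hnear : ∀ s ∈ uIcc (0 : ℝ) ε, ‖u + s • k - w‖ ≤ ‖u - w‖ + |ε| * ‖k‖ := fun s hs => by
    calc ‖u + s • k - w‖ = ‖(u - w) + s • k‖ := by congr 1; abel
      _ ≤ ‖u - w‖ + ‖s • k‖ := norm_add_le _ _
      _ ≤ ‖u - w‖ + |ε| * ‖k‖ := by
        rw [norm_smul, Real.norm_eq_abs]
        exact add_le_add le_rfl (mul_le_mul_of_nonneg_right (habs s hs) (norm_nonneg _))
  have hin := fun s (hs : s ∈ uIcc (0 : ℝ) ε) =>
    hball (y := u + s • k) (by rw [dist_eq_norm]; exact (hnear s hs).trans_lt hz)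
  have hδ : 0 ≤ ‖u - w‖ + |ε| := by positivity
  have hDb : ∀ s ∈ uIcc (0 : ℝ) ε, ‖fderiv ℝ b (u + s • k) k‖ ≤ M * (‖u - w‖ + |ε|) := by
    intro s hs
    have h1 := hL1.norm_sub_le (hin s hs).2.2.1 hw1
    have h2 : fderiv ℝ b (u + s • k) k = (fderiv ℝ b (u + s • k) - fderiv ℝ b w) k := by
      simp [hk]
    have h3 : ‖u + s • k - w‖ ≤ (1 + ‖k‖) * (‖u - w‖ + |ε|) := by
      refine (hnear s hs).trans ?_
      nlinarith [norm_nonneg k, norm_nonneg (u - w), abs_nonneg ε,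
        mul_nonneg (norm_nonneg k) (norm_nonneg (u - w))]
    rw [h2]
    calc _ ≤ ‖fderiv ℝ b (u + s • k) - fderiv ℝ b w‖ * ‖k‖ := ContinuousLinearMap.le_opNorm _ _
      _ ≤ (L1 * ((1 + ‖k‖) * (‖u - w‖ + |ε|))) * ‖k‖ := by
        gcongr
        exact h1.trans (by gcongr)
      _ = M * (‖u - w‖ + |ε|) := by rw [hM]; ring
  have hline : ∀ s : ℝ, HasDerivAt (fun s : ℝ => u + s • k) k s := fun s => by
    simpa using ((hasDerivAt_id s).smul_const k).const_add u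
  have hbd : ∀ s ∈ uIcc (0 : ℝ) ε,
      HasDerivAt (fun s : ℝ => b (u + s • k)) (fderiv ℝ b (u + s • k) k) s := fun s hs =>
    (hin s hs).1.hasFDerivAt.comp_hasDerivAt s (hline s)
  constructor
  · have := (convex_uIcc (0 : ℝ) ε).norm_image_sub_le_of_norm_hasDerivWithin_le
      (fun s hs => (hbd s hs).hasDerivWithinAt) hDb left_mem_uIcc right_mem_uIcc
    simp only [zero_smul, add_zero, sub_zero, Real.norm_eq_abs] at this
    refine this.trans ?_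
    have h0 : 0 ≤ |ε| * (‖u - w‖ + |ε|) := by positivity
    nlinarith [mul_nonneg hN0 h0]
  · have hg : ∀ s ∈ uIcc (0 : ℝ) ε, HasDerivAt
        (fun s : ℝ => Q (u + s • k) (u + s • k) / 2 - π (u + ε • k) (b (u + s • k)))
        ((π (u + s • k) - π (u + ε • k)) (fderiv ℝ b (u + s • k) k)) s := by
      intro s hs
      have h1 : HasDerivAt (fun s : ℝ => Q (u + s • k) (u + s • k))
          (Q k (u + s • k) + Q (u + s • k) k) s :=
        (Q.hasFDerivAt.comp_hasDerivAt s (hline s)).clm_apply (hline s)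
      have h2 := (π (u + ε • k)).hasFDerivAt.comp_hasDerivAt s (hbd s hs)
      have h3 := (h1.div_const 2).sub h2
      refine h3.congr_deriv ?_
      rw [sub_apply, (hin s hs).2.1 k, hQ k (u + s • k)]
      ring
    have hb2 : ∀ s ∈ uIcc (0 : ℝ) ε, ‖(π (u + s • k) - π (u + ε • k)) (fderiv ℝ b (u + s • k) k)‖ ≤
        L2 * ‖k‖ * M * |ε| * (‖u - w‖ + |ε|) := by
      intro s hs
      have h1 := hL2.norm_sub_le (hin s hs).2.2.2 (hin ε right_mem_uIcc).2.2.2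
      have h2 : ‖u + s • k - (u + ε • k)‖ ≤ |ε| * ‖k‖ := by
        rw [add_sub_add_left_eq_sub, ← sub_smul, norm_smul, Real.norm_eq_abs]
        exact mul_le_mul_of_nonneg_right (habs' s hs) (norm_nonneg _)
      calc _ ≤ ‖π (u + s • k) - π (u + ε • k)‖ * ‖fderiv ℝ b (u + s • k) k‖ :=
            ContinuousLinearMap.le_opNorm _ _
        _ ≤ (L2 * (|ε| * ‖k‖)) * (M * (‖u - w‖ + |ε|)) := by
          gcongr
          · exact h1.trans (by gcongr)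
          · exact hDb s hs
        _ = _ := by ring
    have := (convex_uIcc (0 : ℝ) ε).norm_image_sub_le_of_norm_hasDerivWithin_le
      (fun s hs => (hg s hs).hasDerivWithinAt) hb2 left_mem_uIcc right_mem_uIcc
    simp only [zero_smul, add_zero, sub_zero, Real.norm_eq_abs] at this
    have e : Q (u + ε • k) (u + ε • k) / 2 - Q u u / 2 - π (u + ε • k) (b (u + ε • k) - b u) =
        Q (u + ε • k) (u + ε • k) / 2 - π (u + ε • k) (b (u + ε • k)) -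
          (Q u u / 2 - π (u + ε • k) (b u)) := by
      rw [map_sub]; ring
    rw [e]
    refine this.trans ?_
    have h0 : 0 ≤ ε ^ 2 * (‖u - w‖ + |ε|) := by positivity
    have h1 : L2 * ‖k‖ * M * |ε| * (‖u - w‖ + |ε|) * |ε| =
        L2 * ‖k‖ * M * (ε ^ 2 * (‖u - w‖ + |ε|)) := by
      rw [← sq_abs ε]; ring
    rw [h1]
    nlinarith [mul_nonneg hM0 h0]

theorem conj_nc (hQ : ∀ u v, Q u v = Q v u) (hb : ContDiffAt ℝ 2 b w)
    (hπ : ContDiffAt ℝ 1 π w) (fv : ∀ᶠ u in 𝓝 w, ∀ h, π u (fderiv ℝ b u h) = Q u h)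
    (hk : fderiv ℝ b w k = 0) {H : E → ℝ} {C : ℝ}
    (up : ∀ᶠ z : E × E in 𝓝 (w, 0), H (b z.1 + z.2) ≤ Q z.1 z.1 / 2 + π z.1 z.2 + C * ‖z.2‖ ^ 2)
    (low : ∀ᶠ β in 𝓝 (0 : E), Q w w / 2 + π w β - C * ‖β‖ ^ 2 ≤ H (b w + β)) :
    fderiv ℝ π w k = 0 := by
  obtain ⟨C0, hC0, hen⟩ := conj_energy hQ hb hπ fv hk
  have hline : HasDerivAt (fun s : ℝ => w + s • k) k 0 := by
    simpa using ((hasDerivAt_id (0 : ℝ)).smul_const k).const_add w
  have hw : w + (0 : ℝ) • k = w := by simp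
  have hbd : HasDerivAt (fun s : ℝ => b (w + s • k)) 0 0 := by
    have h1 : HasFDerivAt b (fderiv ℝ b w) (w + (0 : ℝ) • k) := by
      rw [hw]; exact (hb.differentiableAt (by norm_num)).hasFDerivAt
    have := h1.comp_hasDerivAt (0 : ℝ) hline
    rwa [hk] at this
  have hπd : HasDerivAt (fun s : ℝ => π (w + s • k)) (fderiv ℝ π w k) 0 := by
    have h1 : HasFDerivAt π (fderiv ℝ π w) (w + (0 : ℝ) • k) := by
      rw [hw]; exact (hπ.differentiableAt (by norm_num)).hasFDerivAt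
    exact h1.comp_hasDerivAt (0 : ℝ) hline
  set D := fderiv ℝ π w k with hD
  have tB := hbd.tendsto_slope_zero_right
  have tP := hπd.tendsto_slope_zero_right
  simp only [zero_add, hw] at tB tP
  have key : ∀ v : E, -D v ≤ 2 * C * ‖v‖ ^ 2 := by
    intro v
    have t0 : Tendsto (fun ε : ℝ => ε) (𝓝[>] 0) (𝓝 0) := tendsto_id.mono_left nhdsWithin_le_nhds
    have tPB : Tendsto (fun ε : ℝ => (ε⁻¹ • (π (w + ε • k) - π w)) (ε⁻¹ • (b (w + ε • k) - b w)))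
        (𝓝[>] 0) (𝓝 (D 0)) :=
      ((isBoundedBilinearMap_apply (𝕜 := ℝ) (E := E) (F := ℝ)).continuous.tendsto (D, 0)).comp
        (tP.prodMk_nhds tB)
    have tPv : Tendsto (fun ε : ℝ => -(ε⁻¹ • (π (w + ε • k) - π w)) v) (𝓝[>] 0) (𝓝 (-D v)) :=
      (((ContinuousLinearMap.apply ℝ ℝ v).continuous.tendsto D).comp tP).neg
    have tR : Tendsto (fun ε : ℝ => C0 * ε +
        (ε⁻¹ • (π (w + ε • k) - π w)) (ε⁻¹ • (b (w + ε • k) - b w)) + C * ‖v‖ ^ 2 +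
        C * ‖ε⁻¹ • (b (w + ε • k) - b w) + v‖ ^ 2) (𝓝[>] 0)
        (𝓝 (C0 * 0 + D 0 + C * ‖v‖ ^ 2 + C * ‖(0 : E) + v‖ ^ 2)) :=
      (((t0.const_mul C0).add tPB).add tendsto_const_nhds).add
        (((tB.add tendsto_const_nhds).norm.pow 2).const_mul C)
    have hle := le_of_tendsto_of_tendsto tPv tR ?_
    · simp only [mul_zero, map_zero, zero_add] at hle
      linarith
    have c1 : Tendsto (fun ε : ℝ => ((w, ε) : E × ℝ)) (𝓝[>] 0) (𝓝 (w, 0)) :=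
      tendsto_const_nhds.prodMk_nhds t0
    have c2 : Tendsto (fun ε : ℝ => ((w + ε • k, ε • v) : E × E)) (𝓝[>] 0) (𝓝 (w, 0)) := by
      have h1 : Tendsto (fun ε : ℝ => ((w + ε • k, ε • v) : E × E)) (𝓝 0)
          (𝓝 (w + (0 : ℝ) • k, (0 : ℝ) • v)) :=
        (by fun_prop : Continuous fun ε : ℝ => ((w + ε • k, ε • v) : E × E)).tendsto 0
      simp only [zero_smul, add_zero] at h1
      exact h1.mono_left nhdsWithin_le_nhds
    have c3 : Tendsto (fun ε : ℝ => b (w + ε • k) - b w + ε • v) (𝓝[>] 0) (𝓝 0) := by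
      have h1 := hbd.continuousAt.tendsto
      have h2 := ((h1.mono_left nhdsWithin_le_nhds).sub_const (b w)).add (t0.smul_const v)
      simpa using h2
    filter_upwards [c1.eventually hen, c2.eventually up, c3.eventually low, self_mem_nhdsWithin]
      with ε h1 h2 h3 hε
    have hε' : (0 : ℝ) < ε := hε
    simp only [sub_self, norm_zero, zero_add] at h1 h2 h3
    set P := ε⁻¹ • (π (w + ε • k) - π w) with hP
    set B := ε⁻¹ • (b (w + ε • k) - b w) with hB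
    have eP : π (w + ε • k) = π w + ε • P := by
      rw [hP, smul_inv_smul₀ hε'.ne']; abel
    have eB : b (w + ε • k) - b w = ε • B := by
      rw [hB, smul_inv_smul₀ hε'.ne']
    have e1 : b w + (b (w + ε • k) - b w + ε • v) = b (w + ε • k) + ε • v := by abel
    rw [e1, eB, ← smul_add, norm_smul, Real.norm_eq_abs, abs_of_pos hε'] at h3
    rw [norm_smul, Real.norm_eq_abs, abs_of_pos hε', eP] at h2
    have h4 := (abs_le.1 h1.2).2
    rw [eB, eP, abs_of_pos hε'] at h4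
    simp only [add_apply, smul_apply, map_smul, map_add,
      smul_eq_mul] at h2 h3 h4
    have h5 : ε ^ 2 * (-P v) ≤
        ε ^ 2 * (C0 * ε + P B + C * ‖v‖ ^ 2 + C * ‖B + v‖ ^ 2) := by
      nlinarith
    exact le_of_mul_le_mul_left h5 (by positivity)
  ext v
  have t0 : Tendsto (fun μ : ℝ => 2 * C * ‖v‖ ^ 2 * μ) (𝓝[>] 0) (𝓝 0) := by
    have : Tendsto (fun μ : ℝ => 2 * C * ‖v‖ ^ 2 * μ) (𝓝 0) (𝓝 (2 * C * ‖v‖ ^ 2 * 0)) :=
      tendsto_id.const_mul _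
    rw [mul_zero] at this
    exact this.mono_left nhdsWithin_le_nhds
  have hs : ∀ σ : ℝ, |σ| = 1 → σ * D v ≤ 0 := by
    intro σ hσ
    refine ge_of_tendsto t0 ?_
    filter_upwards [self_mem_nhdsWithin] with μ hμ
    have hμ' : (0 : ℝ) < μ := hμ
    have h1 := key ((-(σ * μ)) • v)
    rw [map_smul, norm_smul, Real.norm_eq_abs, abs_neg, abs_mul, hσ, abs_of_pos hμ',
      smul_eq_mul] at h1
    have h2 : μ * (σ * D v) ≤ μ * (2 * C * ‖v‖ ^ 2 * μ) := by nlinarith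
    exact le_of_mul_le_mul_left h2 hμ'
  have h1 := hs 1 (by simp)
  have h2 := hs (-1) (by simp)
  simp only [zero_apply]
  linarith

theorem conj_blow (hQ : ∀ u v, Q u v = Q v u) (hb : ContDiffAt ℝ 2 b w)
    (hπ : ContDiffAt ℝ 1 π w) (fv : ∀ᶠ u in 𝓝 w, ∀ h, π u (fderiv ℝ b u h) = Q u h)
    (hk : fderiv ℝ b w k = 0) {H : E → E → ℝ} {C : ℝ}
    (up : ∀ᶠ z : E × E × E in 𝓝 (w, 0, 0), H z.2.1 (b z.1 + z.2.2) ≤
      Q z.1 z.1 / 2 - Q z.1 z.2.1 + π z.1 z.2.2 + C * (‖z.2.1‖ ^ 2 + ‖z.2.2‖ ^ 2)) :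
    ∃ c > 0, ∃ C' : ℝ, ∀ᶠ u in 𝓝[≠] w, ContDiffAt ℝ 2 (fun ζ => H ζ (b u)) 0 →
      H 0 (b u) = Q u u / 2 → (∀ ξ, fderiv ℝ (fun ζ => H ζ (b u)) 0 ξ = -Q u ξ) → ∀ ξ,
        fderiv ℝ (fderiv ℝ fun ζ => H ζ (b u)) 0 ξ ξ ≤ C' * ‖ξ‖ ^ 2 - c * Q k ξ ^ 2 / ‖u - w‖ := by
  obtain ⟨C0, hC0, hen⟩ := conj_energy hQ hb hπ fv hk
  set C2 : ℝ := C0 + |C| * C0 ^ 2 with hC2
  have hC2p : 0 < C2 := by positivity
  refine ⟨1 / (2 * C2), by positivity, 2 * C, ?_⟩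
  have c1 : Tendsto (fun u : E => ((u, 0) : E × ℝ)) (𝓝 w) (𝓝 (w, 0)) :=
    tendsto_id.prodMk_nhds tendsto_const_nhds
  have c2 : Tendsto (fun u : E => ((u, 0, 0) : E × E × E)) (𝓝 w) (𝓝 (w, 0, 0)) :=
    tendsto_id.prodMk_nhds tendsto_const_nhds
  have hd : ∀ᶠ u in 𝓝 w, ContinuousAt b u :=
    (hb.eventually (by simp)).mono fun u hu => hu.continuousAt
  have hs : ∀ᶠ u in 𝓝 w, ‖u - w‖ < 1 := by
    have : ContinuousAt (fun u : E => ‖u - w‖) w := by fun_prop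
    exact this.eventually_lt continuousAt_const (by simp)
  filter_upwards [nhdsWithin_le_nhds (c1.eventually hen.eventually_nhds),
    nhdsWithin_le_nhds (c2.eventually up.eventually_nhds), nhdsWithin_le_nhds hd,
    nhdsWithin_le_nhds hs, self_mem_nhdsWithin] with u h1 h2 h3 h4 h5 hh h0 hD ξ
  have hδ : 0 < ‖u - w‖ := norm_pos_iff.2 (sub_ne_zero.2 h5)
  set δ := ‖u - w‖ with hδe
  set A := fderiv ℝ (fderiv ℝ fun ζ => H ζ (b u)) 0 ξ ξ with hA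
  have t0 : Tendsto (fun t : ℝ => t) (𝓝[>] 0) (𝓝 0) := tendsto_id.mono_left nhdsWithin_le_nhds
  have key : ∀ l κ : ℝ, 0 < κ → A / 2 ≤ C * ‖ξ‖ ^ 2 - l * Q k ξ + C0 * l ^ 2 * δ +
      |C| * (C0 * δ) ^ 2 * l ^ 2 + κ * ‖ξ‖ ^ 2 := by
    intro l κ hκ
    have tR : Tendsto (fun t : ℝ => C * ‖ξ‖ ^ 2 - l * Q k ξ + C0 * l ^ 2 * (δ + |l * t|) +
        |C| * (C0 * (δ + |l * t|)) ^ 2 * l ^ 2 + κ * ‖ξ‖ ^ 2) (𝓝 0)
        (𝓝 (C * ‖ξ‖ ^ 2 - l * Q k ξ + C0 * l ^ 2 * (δ + |l * 0|) +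
        |C| * (C0 * (δ + |l * 0|)) ^ 2 * l ^ 2 + κ * ‖ξ‖ ^ 2)) :=
      (by fun_prop : Continuous fun t : ℝ => C * ‖ξ‖ ^ 2 - l * Q k ξ +
        C0 * l ^ 2 * (δ + |l * t|) + |C| * (C0 * (δ + |l * t|)) ^ 2 * l ^ 2 + κ * ‖ξ‖ ^ 2).tendsto 0
    simp only [mul_zero, abs_zero, add_zero] at tR
    refine ge_of_tendsto (tR.mono_left (nhdsWithin_le_nhds (s := Ioi 0))) ?_
    have tl : Tendsto (fun t : ℝ => l * t) (𝓝[>] 0) (𝓝 0) := by
      simpa using t0.const_mul l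
    have tu : Tendsto (fun t : ℝ => u + (l * t) • k) (𝓝[>] 0) (𝓝 u) := by
      simpa using (tl.smul_const k).const_add u
    have tξ : Tendsto (fun t : ℝ => t • ξ) (𝓝[>] 0) (𝓝 0) := by
      simpa using t0.smul_const ξ
    have d1 : Tendsto (fun t : ℝ => ((u, l * t) : E × ℝ)) (𝓝[>] 0) (𝓝 (u, 0)) :=
      tendsto_const_nhds.prodMk_nhds tl
    have d2 : Tendsto (fun t : ℝ => ((u + (l * t) • k, t • ξ, b u - b (u + (l * t) • k)) : E × E × E))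
        (𝓝[>] 0) (𝓝 (u, 0, 0)) := by
      refine tu.prodMk_nhds (tξ.prodMk_nhds ?_)
      simpa using (h3.tendsto.comp tu).const_sub (b u)
    filter_upwards [d1.eventually h1, d2.eventually h2, tξ.eventually (peano2 hh hκ),
      self_mem_nhdsWithin] with t g1 g2 g3 ht
    have ht' : (0 : ℝ) < t := ht

    have e1 : b (u + (l * t) • k) + (b u - b (u + (l * t) • k)) = b u := by abel
    rw [e1, ← neg_sub (b (u + (l * t) • k)) (b u), map_neg, norm_neg, norm_smul, Real.norm_eq_abs,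
      abs_of_pos ht', map_smul] at g2
    have g4 := (abs_le.1 g1.2).2
    have g5 := (abs_le.1 g3).1
    rw [h0, hD, norm_smul, Real.norm_eq_abs, abs_of_pos ht'] at g5
    simp only [map_smul, smul_apply, smul_eq_mul] at g5
    rw [← hA] at g5
    have e2 : Q (u + (l * t) • k) ξ = Q u ξ + l * t * Q k ξ := by simp
    rw [e2, smul_eq_mul] at g2
    have g6 : C * ‖b (u + (l * t) • k) - b u‖ ^ 2 ≤ |C| * (C0 * (δ + |l * t|)) ^ 2 * (l * t) ^ 2 := by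
      calc _ ≤ |C| * ‖b (u + (l * t) • k) - b u‖ ^ 2 := by gcongr; exact le_abs_self C
        _ ≤ |C| * (C0 * |l * t| * (δ + |l * t|)) ^ 2 := by gcongr; exact g1.1
        _ = _ := by rw [← sq_abs (l * t)]; ring
    have h6 : t ^ 2 * (A / 2) ≤ t ^ 2 * (C * ‖ξ‖ ^ 2 - l * Q k ξ + C0 * l ^ 2 * (δ + |l * t|) +
        |C| * (C0 * (δ + |l * t|)) ^ 2 * l ^ 2 + κ * ‖ξ‖ ^ 2) := by
      nlinarith
    exact le_of_mul_le_mul_left h6 (by positivity)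
  have key2 : ∀ l : ℝ, A / 2 ≤ C * ‖ξ‖ ^ 2 - l * Q k ξ + C2 * l ^ 2 * δ := by
    intro l
    have tR : Tendsto (fun κ : ℝ => C * ‖ξ‖ ^ 2 - l * Q k ξ + C2 * l ^ 2 * δ + κ * ‖ξ‖ ^ 2) (𝓝[>] 0)
        (𝓝 (C * ‖ξ‖ ^ 2 - l * Q k ξ + C2 * l ^ 2 * δ + 0 * ‖ξ‖ ^ 2)) :=
      (t0.mul_const _).const_add _
    rw [zero_mul, add_zero] at tR
    refine ge_of_tendsto tR ?_
    filter_upwards [self_mem_nhdsWithin] with κ hκ
    have g := key l κ hκ
    have g2 : |C| * (C0 * δ) ^ 2 * l ^ 2 ≤ |C| * C0 ^ 2 * l ^ 2 * δ := by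
      have g3 : δ ^ 2 ≤ δ := by nlinarith
      calc _ = |C| * C0 ^ 2 * l ^ 2 * δ ^ 2 := by ring
        _ ≤ _ := by gcongr
    rw [hC2]
    nlinarith
  have g := key2 (Q k ξ / (2 * C2 * δ))
  have e : C * ‖ξ‖ ^ 2 - Q k ξ / (2 * C2 * δ) * Q k ξ + C2 * (Q k ξ / (2 * C2 * δ)) ^ 2 * δ =
      (2 * C * ‖ξ‖ ^ 2 - 1 / (2 * C2) * Q k ξ ^ 2 / δ) / 2 := by
    field_simp
    ring
  rw [e] at g
  linarith

end Vale.Agent.P234
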