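import Vale.Agent.P234.Taylor

/-!
# Uniform quasi-convexity up to third order  (TASK; calculus)

Constants: `c₀ ‖u‖² ≤ G a u u`, `‖G a‖ ≤ C₀`, `‖u‖ ≤ R` on `K` (compactness; for `c₀` minimise over
`fst '' K ×ˢ sphere 0 1`), `L` from `hess_bounds`, `C₃` from `taylor3`.
For fixed `a, ζ` put `ψ u = G a u ζ - hess f a u ζ ζ / 2`; then `|G a u u / 2 - f (a,ζ,u) - ψ u| ≤ C₃ ‖ζ‖³`
on `K`.  Let `ψ' u = ψ u + κ G a u u`, `κ = K₀ ‖ζ‖³`.  Claim: `ψ'` is quasi-convex on `W`.  On a segment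
`u + s • η ⊆ W`, `η ≠ 0`: if `|G a η ζ| > (L/2 + 1) ‖η‖ ‖ζ‖²` the derivative of `ψ'` has the sign of
`G a η ζ` (for `2 K₀ C₀ R ‖ζ‖ ≤ 1`), so `ψ'` is monotone or antitone.  Otherwise write `ζ = ξ + β • η` with
`G a ξ η = 0`, `|β| ‖η‖ ≤ C₂ ‖ζ‖²`; `ψ'` is the sum of an affine function, the convex function
`-hess ξ ξ / 2` (`hc`), and `-(β (hess ξ η + hess η ξ) + β² hess η η) / 2 + κ G a u u`, whose second
derivative is `≥ -C₄ ‖η‖² ‖ζ‖³ + 2 K₀ c₀ ‖η‖² ‖ζ‖³ ≥ 0` for `K₀ = C₄ / c₀`.  So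
`{u ∈ W | ψ' u ≤ m'}` is convex and contains `S` for `m' = m + C₃ ‖ζ‖³ + κ C₀ R²`; `convexHull_min`.
-/

namespace Vale.Agent.P234

open scoped ContDiff Topology
open Set Filter

section QuasiAux

variable {E : Type*} [NormedAddCommGroup E] [NormedSpace ℝ E]

theorem quasi_app {H : ℝ → E →L[ℝ] E →L[ℝ] ℝ} {B : E →L[ℝ] E →L[ℝ] ℝ} {s : ℝ}
    (h : HasDerivAt H B s) (x y : E) : HasDerivAt (fun s => H s x y) (B x y) s := by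
  simpa using (h.clm_apply (hasDerivAt_const s x)).clm_apply (hasDerivAt_const s y)

theorem quasi_lin (Q : E →L[ℝ] E →L[ℝ] ℝ) (u η ζ : E) (s : ℝ) :
    HasDerivAt (fun s : ℝ => Q (u + s • η) ζ) (Q η ζ) s := by
  have h : HasDerivAt (fun s : ℝ => u + s • η) η s := by
    simpa using ((hasDerivAt_id s).smul_const η).const_add u
  simpa using ((hasDerivAt_const s Q).clm_apply h).clm_apply (hasDerivAt_const s ζ)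

theorem quasi_quad {Q : E →L[ℝ] E →L[ℝ] ℝ} (symm : ∀ u v, Q u v = Q v u) (u η : E) (s : ℝ) :
    HasDerivAt (fun s : ℝ => Q (u + s • η) (u + s • η)) (2 * Q (u + s • η) η) s := by
  have h : HasDerivAt (fun s : ℝ => u + s • η) η s := by
    simpa using ((hasDerivAt_id s).smul_const η).const_add u
  have := ((hasDerivAt_const s Q).clm_apply h).clm_apply h
  refine this.congr_deriv ?_
  rw [ContinuousLinearMap.zero_apply, zero_add, symm η]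
  ring

theorem quasi_bd {B : E →L[ℝ] E →L[ℝ] ℝ} {M : ℝ} (h : ‖B‖ ≤ M) (x y : E) :
    |B x y| ≤ M * ‖x‖ * ‖y‖ := by
  have := B.le_opNorm₂ x y
  rw [Real.norm_eq_abs] at this
  exact this.trans (by gcongr)

theorem quasi_real {L c₀ C₂ K₀ z e θ b₁ b₂ b₃ q : ℝ} (hL : 0 < L) (hc₀ : 0 < c₀) (hC₂ : 0 < C₂)
    (hK : K₀ * c₀ = L * (2 * C₂ + C₂ ^ 2)) (hz : 0 ≤ z) (hz1 : z ≤ 1) (hθ0 : 0 ≤ θ)
    (hθ : θ ≤ C₂ * z ^ 2) (h₁ : |b₁| ≤ L * e ^ 2 * z * θ) (h₂ : |b₂| ≤ L * e ^ 2 * θ * z)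
    (h₃ : |b₃| ≤ L * e ^ 2 * θ * θ) (hq : c₀ * e ^ 2 ≤ q) :
    0 ≤ -((b₁ + b₂ - b₃) / 2) + K₀ * z ^ 3 * (2 * q) := by
  have hK₀ : 0 < K₀ := by
    have : 0 < K₀ * c₀ := by rw [hK]; positivity
    exact (mul_pos_iff_of_pos_right hc₀).1 this
  have a1 : z * θ ≤ C₂ * z ^ 3 := by nlinarith
  have a2 : θ * θ ≤ C₂ ^ 2 * z ^ 3 := by
    have b1 : θ * θ ≤ (C₂ * z ^ 2) * (C₂ * z ^ 2) := by gcongr
    have b2 : C₂ ^ 2 * z ^ 3 * z ≤ C₂ ^ 2 * z ^ 3 := mul_le_of_le_one_right (by positivity) hz1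
    nlinarith
  have a3 : L * e ^ 2 * (z * θ) ≤ L * e ^ 2 * (C₂ * z ^ 3) := by gcongr
  have a4 : L * e ^ 2 * (θ * θ) ≤ L * e ^ 2 * (C₂ ^ 2 * z ^ 3) := by gcongr
  have a5 : K₀ * z ^ 3 * (c₀ * e ^ 2) ≤ K₀ * z ^ 3 * q := by gcongr
  have a6 : K₀ * z ^ 3 * (c₀ * e ^ 2) = L * (2 * C₂ + C₂ ^ 2) * (z ^ 3 * e ^ 2) := by
    rw [← hK]; ring
  have a7 : 0 ≤ L * (2 * C₂ + C₂ ^ 2) * (z ^ 3 * e ^ 2) := by positivity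
  have c1 := le_abs_self b₁
  have c2 := le_abs_self b₂
  have c3 := neg_abs_le b₃
  nlinarith

theorem quasi_seg {Q : E →L[ℝ] E →L[ℝ] ℝ} (symm : ∀ u v, Q u v = Q v u) {c₀ C₀ R L C₂ K₀ : ℝ}
    (hc₀ : 0 < c₀) (hL : 0 < L) (hC₂ : C₂ * c₀ = L / 2 + 1) (hK : K₀ * c₀ = L * (2 * C₂ + C₂ ^ 2))
    (hQ : ∀ u, c₀ * ‖u‖ ^ 2 ≤ Q u u) (hC₀ : ‖Q‖ ≤ C₀) {H B1 B2 : ℝ → E →L[ℝ] E →L[ℝ] ℝ} {u η ζ : E}
    (hη : η ≠ 0) (hR : ∀ s ∈ Icc (0 : ℝ) 1, ‖u + s • η‖ ≤ R)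
    (hH : ∀ s ∈ Icc (0 : ℝ) 1, HasDerivAt H (B1 s) s ∧ HasDerivAt B1 (B2 s) s ∧
      ‖B1 s‖ ≤ L * ‖η‖ ∧ ‖B2 s‖ ≤ L * ‖η‖ ^ 2)
    (hc : ∀ ξ, Q ξ η = 0 → ConvexOn ℝ (Icc (0 : ℝ) 1) fun s => -H s ξ ξ)
    (hz1 : ‖ζ‖ ≤ 1) (hz2 : 2 * K₀ * C₀ * R * ‖ζ‖ ≤ 1) :
    QuasiconvexOn ℝ (Icc (0 : ℝ) 1) fun s =>
      Q (u + s • η) ζ - H s ζ ζ / 2 + K₀ * ‖ζ‖ ^ 3 * Q (u + s • η) (u + s • η) := by
  have hC₂0 : 0 < C₂ := (mul_pos_iff_of_pos_right hc₀).1 (by rw [hC₂]; positivity)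
  have hK₀ : 0 < K₀ := (mul_pos_iff_of_pos_right hc₀).1 (by rw [hK]; positivity)
  have hC₀0 : 0 ≤ C₀ := (norm_nonneg Q).trans hC₀
  have he : 0 < ‖η‖ := norm_pos_iff.2 hη
  have hd : ∀ s ∈ Icc (0 : ℝ) 1, HasDerivAt (fun s : ℝ =>
      Q (u + s • η) ζ - H s ζ ζ / 2 + K₀ * ‖ζ‖ ^ 3 * Q (u + s • η) (u + s • η))
      (Q η ζ - B1 s ζ ζ / 2 + K₀ * ‖ζ‖ ^ 3 * (2 * Q (u + s • η) η)) s := fun s hs =>
    ((quasi_lin Q u η ζ s).sub ((quasi_app (hH s hs).1 ζ ζ).div_const 2)).add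
      ((quasi_quad symm u η s).const_mul _)
  have hcont : ContinuousOn (fun s : ℝ =>
      Q (u + s • η) ζ - H s ζ ζ / 2 + K₀ * ‖ζ‖ ^ 3 * Q (u + s • η) (u + s • η)) (Icc 0 1) :=
    fun s hs => (hd s hs).continuousAt.continuousWithinAt
  have hb : ∀ s ∈ Icc (0 : ℝ) 1, |B1 s ζ ζ| ≤ L * ‖η‖ * ‖ζ‖ * ‖ζ‖ ∧
      |K₀ * ‖ζ‖ ^ 3 * (2 * Q (u + s • η) η)| ≤ ‖η‖ * ‖ζ‖ ^ 2 := by
    intro s hs
    refine ⟨quasi_bd (hH s hs).2.2.1 ζ ζ, ?_⟩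
    have h1 : |Q (u + s • η) η| ≤ C₀ * R * ‖η‖ :=
      (quasi_bd hC₀ _ _).trans (by gcongr; exact hR s hs)
    rw [abs_mul, abs_mul 2, abs_of_nonneg (by positivity : 0 ≤ K₀ * ‖ζ‖ ^ 3), abs_two]
    calc K₀ * ‖ζ‖ ^ 3 * (2 * |Q (u + s • η) η|) ≤ K₀ * ‖ζ‖ ^ 3 * (2 * (C₀ * R * ‖η‖)) := by gcongr
      _ = (2 * K₀ * C₀ * R * ‖ζ‖) * (‖η‖ * ‖ζ‖ ^ 2) := by ring
      _ ≤ _ := mul_le_of_le_one_left (by positivity) hz2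
  by_cases h1 : (L / 2 + 1) * ‖η‖ * ‖ζ‖ ^ 2 ≤ Q η ζ
  · refine MonotoneOn.quasiconvexOn ?_ (convex_Icc 0 1)
    refine monotoneOn_of_hasDerivWithinAt_nonneg (convex_Icc 0 1) hcont
      (fun s hs => (hd s (interior_subset hs)).hasDerivWithinAt) fun s hs => ?_
    obtain ⟨b1, b2⟩ := hb s (interior_subset hs)
    nlinarith [le_abs_self (B1 s ζ ζ), neg_abs_le (K₀ * ‖ζ‖ ^ 3 * (2 * Q (u + s • η) η))]
  by_cases h2 : Q η ζ ≤ -((L / 2 + 1) * ‖η‖ * ‖ζ‖ ^ 2)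
  · refine AntitoneOn.quasiconvexOn ?_ (convex_Icc 0 1)
    refine antitoneOn_of_hasDerivWithinAt_nonpos (convex_Icc 0 1) hcont
      (fun s hs => (hd s (interior_subset hs)).hasDerivWithinAt) fun s hs => ?_
    obtain ⟨b1, b2⟩ := hb s (interior_subset hs)
    nlinarith [neg_abs_le (B1 s ζ ζ), le_abs_self (K₀ * ‖ζ‖ ^ 3 * (2 * Q (u + s • η) η))]
  have hn : 0 < Q η η := lt_of_lt_of_le (by positivity) (hQ η)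
  obtain ⟨β, hβ⟩ : ∃ β : ℝ, β * Q η η = Q η ζ := ⟨Q η ζ / Q η η, by field_simp⟩
  have hθ : ‖β • η‖ ≤ C₂ * ‖ζ‖ ^ 2 := by
    have h3 : |Q η ζ| ≤ (L / 2 + 1) * ‖η‖ * ‖ζ‖ ^ 2 := abs_le.2 ⟨(not_le.1 h2).le, (not_le.1 h1).le⟩
    rw [← hβ, abs_mul, abs_of_pos hn, ← hC₂] at h3
    have h4 : |β| * (c₀ * ‖η‖ ^ 2) ≤ |β| * Q η η := by gcongr; exact hQ η
    rw [norm_smul, Real.norm_eq_abs]
    refine le_of_mul_le_mul_left ?_ (mul_pos hc₀ he)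
    nlinarith
  have hξ : Q (ζ - β • η) η = 0 := by
    rw [map_sub, map_smul, ContinuousLinearMap.sub_apply, ContinuousLinearMap.smul_apply, smul_eq_mul,
      hβ, symm, sub_self]
  generalize β • η = θ at hθ hξ
  have c1 := (hc _ hξ).smul (c := 1 / 2) (by norm_num)
  have c2 : ConvexOn ℝ (Icc (0 : ℝ) 1) fun s : ℝ => Q (u + s • η) ζ -
      (H s ζ θ + H s θ ζ - H s θ θ) / 2 + K₀ * ‖ζ‖ ^ 3 * Q (u + s • η) (u + s • η) := by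
    have d1 : ∀ s ∈ Icc (0 : ℝ) 1, HasDerivAt (fun s : ℝ => Q (u + s • η) ζ -
        (H s ζ θ + H s θ ζ - H s θ θ) / 2 + K₀ * ‖ζ‖ ^ 3 * Q (u + s • η) (u + s • η))
        (Q η ζ - (B1 s ζ θ + B1 s θ ζ - B1 s θ θ) / 2 + K₀ * ‖ζ‖ ^ 3 * (2 * Q (u + s • η) η)) s :=
      fun s hs => ((quasi_lin Q u η ζ s).sub (((((quasi_app (hH s hs).1 ζ θ).add
        (quasi_app (hH s hs).1 θ ζ)).sub (quasi_app (hH s hs).1 θ θ))).div_const 2)).add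
        ((quasi_quad symm u η s).const_mul _)
    have d2 : ∀ s ∈ Icc (0 : ℝ) 1, HasDerivAt (fun s : ℝ =>
        Q η ζ - (B1 s ζ θ + B1 s θ ζ - B1 s θ θ) / 2 + K₀ * ‖ζ‖ ^ 3 * (2 * Q (u + s • η) η))
        (-((B2 s ζ θ + B2 s θ ζ - B2 s θ θ) / 2) + K₀ * ‖ζ‖ ^ 3 * (2 * Q η η)) s :=
      fun s hs => ((((((quasi_app (hH s hs).2.1 ζ θ).add (quasi_app (hH s hs).2.1 θ ζ)).sub
        (quasi_app (hH s hs).2.1 θ θ))).div_const 2).const_sub _).add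
        (((quasi_lin Q u η η s).const_mul 2).const_mul _)
    refine convexOn_of_hasDerivWithinAt2_nonneg (convex_Icc 0 1)
      (fun s hs => (d1 s hs).continuousAt.continuousWithinAt)
      (fun s hs => (d1 s (interior_subset hs)).hasDerivWithinAt)
      (fun s hs => (d2 s (interior_subset hs)).hasDerivWithinAt) fun s hs => ?_
    have hB := (hH s (interior_subset hs)).2.2.2
    exact quasi_real hL hc₀ hC₂0 hK (norm_nonneg _) hz1 (norm_nonneg _) hθ (quasi_bd hB ζ θ)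
      (quasi_bd hB θ ζ) (quasi_bd hB θ θ) (hQ η)
  refine ConvexOn.quasiconvexOn ((c1.add c2).congr fun s _ => ?_)
  simp only [Pi.add_apply, smul_eq_mul, map_sub, ContinuousLinearMap.sub_apply]
  ring

theorem quasi_coerc [FiniteDimensional ℝ E] {A : Set E} (hA : IsCompact A)
    {G : E → E →L[ℝ] E →L[ℝ] ℝ} (hG : ContinuousOn G A) (pos : ∀ a ∈ A, ∀ u, u ≠ 0 → 0 < G a u u) :
    ∃ c₀ > 0, ∀ a ∈ A, ∀ u, c₀ * ‖u‖ ^ 2 ≤ G a u u := by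
  have := FiniteDimensional.proper_real E
  have h1 : ContinuousOn (fun p : E × E => G p.1) (A ×ˢ Metric.sphere (0 : E) 1) :=
    hG.comp continuousOn_fst fun p hp => hp.1
  obtain ⟨c₀, hc₀, h⟩ := (hA.prod (isCompact_sphere (0 : E) 1)).exists_forall_le'
    ((h1.clm_apply continuousOn_snd).clm_apply continuousOn_snd) (a := 0) fun p hp =>
      pos p.1 hp.1 p.2 (Metric.ne_of_mem_sphere hp.2 one_ne_zero)
  refine ⟨c₀, hc₀, fun a ha u => ?_⟩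
  rcases eq_or_ne u 0 with rfl | hu
  · simp
  · have hn : 0 < ‖u‖ := norm_pos_iff.2 hu
    have := h (a, ‖u‖⁻¹ • u) ⟨ha, by simp [norm_smul, hn.ne']⟩
    simp only [map_smul, ContinuousLinearMap.smul_apply, smul_eq_mul] at this
    rw [← mul_assoc, ← mul_inv, ← div_eq_inv_mul, le_div_iff₀ (by positivity)] at this
    rwa [sq]

end QuasiAux

theorem quasi {E : Type*} [NormedAddCommGroup E] [NormedSpace ℝ E] [FiniteDimensional ℝ E]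
    {K : Set (E × E)} (hK : IsCompact K) {f : E × E × E → ℝ} {G : E → E →L[ℝ] E →L[ℝ] ℝ}
    (hG : ContinuousOn G (Prod.fst '' K)) (symm : ∀ p ∈ K, ∀ u v, G p.1 u v = G p.1 v u)
    (pos : ∀ p ∈ K, ∀ u, u ≠ 0 → 0 < G p.1 u u) (hf : ∀ p ∈ K, ContDiffAt ℝ 4 f (p.1, 0, p.2))
    (h0 : ∀ p ∈ K, f (p.1, 0, p.2) = G p.1 p.2 p.2 / 2)
    (h1 : ∀ p ∈ K, ∀ ξ, fderiv ℝ (fun ζ => f (p.1, ζ, p.2)) 0 ξ = -G p.1 p.2 ξ)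
    (hc : ∀ a u η ξ : E, (∀ s ∈ Icc (0 : ℝ) 1, (a, u + s • η) ∈ K) → G a ξ η = 0 →
      ConvexOn ℝ (Icc (0 : ℝ) 1) fun s => -hess f a (u + s • η) ξ ξ) :
    ∃ C ρ : ℝ, 0 < C ∧ 0 < ρ ∧ ∀ (a : E) (S : Set E), (∀ u ∈ convexHull ℝ S, (a, u) ∈ K) →
      ∀ ζ : E, ‖ζ‖ ≤ ρ → ∀ m : ℝ, (∀ s ∈ S, G a s s / 2 - f (a, ζ, s) ≤ m) →
        ∀ w ∈ convexHull ℝ S, G a w w / 2 - f (a, ζ, w) ≤ m + C * ‖ζ‖ ^ 3 := by
  have hA : IsCompact (Prod.fst '' K) := hK.image continuous_fst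
  obtain ⟨c₀, hc₀, hQ⟩ := quasi_coerc hA hG (by rintro _ ⟨p, hp, rfl⟩; exact pos p hp)
  obtain ⟨C₀, hC₀⟩ := hA.exists_bound_of_continuousOn (f := G) hG
  obtain ⟨R, hR⟩ := hK.exists_bound_of_continuousOn (f := Prod.snd) continuousOn_snd
  obtain ⟨L, hL, hH⟩ := hess_bounds hK hf
  obtain ⟨C₃, ρ₃, hC₃, hρ₃, hT⟩ := taylor3 hK fun p hp => (hf p hp).of_le (by norm_num)
  obtain ⟨C₂, hC₂⟩ : ∃ C₂ : ℝ, C₂ * c₀ = L / 2 + 1 := ⟨(L / 2 + 1) / c₀, by field_simp⟩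
  obtain ⟨K₀, hK₀⟩ : ∃ K₀ : ℝ, K₀ * c₀ = L * (2 * C₂ + C₂ ^ 2) :=
    ⟨L * (2 * C₂ + C₂ ^ 2) / c₀, by field_simp⟩
  have hC₂0 : 0 < C₂ := (mul_pos_iff_of_pos_right hc₀).1 (by rw [hC₂]; positivity)
  have hK₀0 : 0 < K₀ := (mul_pos_iff_of_pos_right hc₀).1 (by rw [hK₀]; positivity)
  refine ⟨2 * C₃ + K₀ * (|C₀| * R ^ 2), min ρ₃ (min 1 (1 / (|2 * K₀ * C₀ * R| + 1))), by positivity,
    by positivity, fun a S hS ζ hζ m hm w hw => ?_⟩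
  simp only [le_min_iff] at hζ
  obtain ⟨hζ1, hζ2, hζ3⟩ := hζ
  have hz2 : 2 * K₀ * C₀ * R * ‖ζ‖ ≤ 1 := by
    rw [le_div_iff₀ (by positivity)] at hζ3
    nlinarith [le_abs_self (2 * K₀ * C₀ * R), norm_nonneg ζ]
  have hψ : ∀ u, (a, u) ∈ K →
      |G a u u / 2 - f (a, ζ, u) - (G a u ζ - hess f a u ζ ζ / 2)| ≤ C₃ * ‖ζ‖ ^ 3 := by
    intro u hu
    have := hT (a, u) hu ζ hζ1
    rw [h0 (a, u) hu, h1 (a, u) hu, abs_sub_comm] at this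
    convert this using 2
    ring
  have hGb : ∀ u, (a, u) ∈ K → 0 ≤ G a u u ∧ G a u u ≤ |C₀| * R ^ 2 := by
    intro u hu
    refine ⟨le_trans (by positivity) (hQ a ⟨_, hu, rfl⟩ u), ?_⟩
    have h2 := quasi_bd ((hC₀ a ⟨_, hu, rfl⟩).trans (le_abs_self C₀)) u u
    have h3 : ‖u‖ ≤ R := hR _ hu
    have h4 : |C₀| * ‖u‖ ^ 2 ≤ |C₀| * R ^ 2 := by gcongr
    nlinarith [le_abs_self (G a u u)]
  have hconv : Convex ℝ {u ∈ convexHull ℝ S | G a u ζ - hess f a u ζ ζ / 2 +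
      K₀ * ‖ζ‖ ^ 3 * G a u u ≤ m + C₃ * ‖ζ‖ ^ 3 + K₀ * ‖ζ‖ ^ 3 * (|C₀| * R ^ 2)} := by
    rintro x ⟨hx, hx'⟩ y ⟨hy, hy'⟩ α β hα hβ hαβ
    refine ⟨convex_convexHull ℝ S hx hy hα hβ hαβ, ?_⟩
    have e : α • x + β • y = x + β • (y - x) := by
      rw [show α = 1 - β by linarith]; module
    rw [e]
    rcases eq_or_ne (y - x) 0 with hη | hη
    · rw [hη, smul_zero, add_zero]; exact hx'
    have hseg : ∀ s ∈ Icc (0 : ℝ) 1, (a, x + s • (y - x)) ∈ K := fun s hs =>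
      hS _ ((convex_convexHull ℝ S).add_smul_sub_mem hx hy hs)
    have haK : a ∈ Prod.fst '' K := ⟨_, hS x hx, rfl⟩
    obtain ⟨B1, B2, hB⟩ := hH a x (y - x) hseg
    have hq := quasi_seg (symm _ (hS x hx)) hc₀ hL hC₂ hK₀ (hQ a haK) (hC₀ a haK) hη
      (fun s hs => hR _ (hseg s hs)) hB (fun ξ hξ => hc a x (y - x) ξ hseg hξ) hζ2 hz2
    have := hq (m + C₃ * ‖ζ‖ ^ 3 + K₀ * ‖ζ‖ ^ 3 * (|C₀| * R ^ 2)) (x := 0)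
      ⟨left_mem_Icc.2 zero_le_one, by simpa using hx'⟩ (y := 1)
      ⟨right_mem_Icc.2 zero_le_one, by simpa using hy'⟩ hα hβ hαβ
    simpa using this.2
  have hsub : S ⊆ {u ∈ convexHull ℝ S | G a u ζ - hess f a u ζ ζ / 2 +
      K₀ * ‖ζ‖ ^ 3 * G a u u ≤ m + C₃ * ‖ζ‖ ^ 3 + K₀ * ‖ζ‖ ^ 3 * (|C₀| * R ^ 2)} := by
    intro s hs
    have hs' := subset_convexHull ℝ S hs
    refine ⟨hs', ?_⟩
    have h2 := (abs_le.1 (hψ s (hS s hs'))).1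
    have h3 : K₀ * ‖ζ‖ ^ 3 * G a s s ≤ K₀ * ‖ζ‖ ^ 3 * (|C₀| * R ^ 2) := by
      gcongr; exact (hGb s (hS s hs')).2
    linarith [hm s hs]
  have h2 := (convexHull_min hsub hconv hw).2
  have h3 := (abs_le.1 (hψ w (hS w hw))).2
  have h4 : 0 ≤ K₀ * ‖ζ‖ ^ 3 * G a w w := mul_nonneg (by positivity) (hGb w (hS w hw)).1
  linarith

end Vale.Agent.P234
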