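import Mathlib

/-!
# Strict second order lower bounds along a segment; compact convex hulls  (TASK)

`GoodB.seg`: let `δ = min δ₀ δ₁`, `aᵢ ζ = Q wᵢ ζ + Bᵢ ζ ζ / 2`.  For `|σ| ≤ min t (1 - t)`,
`f ζ ≥ (1 - t - σ) a₀ + (t + σ) a₁ + δ ‖ζ‖²`.  With `A = (1-t) B₀ + t B₁ - B`: if `η = 0` use `σ = 0`;
else write `ζ = ξ + β • η`, `β = Q ζ η / Q η η`, `Q ξ η = 0`; then `A ζ ζ ≥ -C₁ |Q ζ η| ‖ζ‖`.  Choose the sign of
`σ` equal to the sign of `Q η ζ` and `|σ| = σ₀` with `σ₀ ‖B₁ - B₀‖ ≤ δ / 2`; for `C₁ ‖ζ‖ ≤ σ₀` the gain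
`σ₀ |Q η ζ|` absorbs the loss.
`isCompact_convexHull`: Carathéodory (`convexHull_eq_union`, `AffineIndependent.card_le_finrank_succ`):
the hull is the image of `stdSimplex ℝ (Fin (d+1)) ×ˢ (univ.pi fun _ => S)` under
`(c, p) ↦ ∑ i, c i • p i`; or induct with `convexJoin`.
`mem_convexHull_iff_support`: `geometric_hahn_banach_point_closed` / `closed_point`; every functional is
`Q · ζ` (injective linear map between spaces of equal finrank); conversely `{u | Q u ζ ≤ max}` is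
convex (`IsCompact.exists_isMaxOn`; `S` is nonempty because the hull is).
-/

namespace Vale.Agent.P234

open scoped Topology
open Set Filter

variable {E : Type*} [NormedAddCommGroup E] [NormedSpace ℝ E] {Q : E →L[ℝ] E →L[ℝ] ℝ}

/-- `f` is bounded below near `0` by the quadratic polynomial with gradient `w` and Hessian `B`, with
room to spare. -/
def GoodB (Q : E →L[ℝ] E →L[ℝ] ℝ) (f : E → ℝ) (w : E) (B : E →L[ℝ] E →L[ℝ] ℝ) : Prop :=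
  ∃ δ > 0, ∀ᶠ ζ in 𝓝 (0 : E), Q w ζ + B ζ ζ / 2 + δ * ‖ζ‖ ^ 2 ≤ f ζ

theorem exists_loss_sg (symm : ∀ u v, Q u v = Q v u) (pos : ∀ u, u ≠ 0 → 0 < Q u u)
    (A : E →L[ℝ] E →L[ℝ] ℝ) (η : E) (hA : ∀ ξ, Q ξ η = 0 → 0 ≤ A ξ ξ) :
    ∃ C, 0 ≤ C ∧ ∀ ζ, -(C * ‖ζ‖ * |Q η ζ|) ≤ A ζ ζ := by
  by_cases hη : η = 0
  · refine ⟨0, le_rfl, fun ζ => ?_⟩
    simpa using hA ζ (by simp [hη])
  have hq := pos η hη
  refine ⟨(2 * (‖A‖ * ‖η‖) + ‖Q‖ * ‖η‖ / Q η η * (‖A‖ * ‖η‖ * ‖η‖)) / Q η η, by positivity,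
    fun ζ => ?_⟩
  set β := Q η ζ / Q η η with hβ
  have h1 := hA (ζ - β • η) (by
    simp only [map_sub, map_smul, sub_apply, smul_apply,
      smul_eq_mul]
    rw [hβ, div_mul_cancel₀ _ hq.ne', symm ζ η, sub_self])
  simp only [map_sub, map_smul, sub_apply, smul_apply,
    smul_eq_mul] at h1
  have hβ1 : |β| = |Q η ζ| / Q η η := by rw [hβ, abs_div, abs_of_pos hq]
  have hβ2 : |β| ≤ ‖Q‖ * ‖η‖ / Q η η * ‖ζ‖ := by
    rw [hβ1, div_mul_eq_mul_div]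
    exact div_le_div_of_nonneg_right (Q.le_opNorm₂ η ζ) hq.le
  have a1 : |A ζ η| ≤ ‖A‖ * ‖ζ‖ * ‖η‖ := A.le_opNorm₂ ζ η
  have a2 : |A η ζ| ≤ ‖A‖ * ‖η‖ * ‖ζ‖ := A.le_opNorm₂ η ζ
  have a3 : |A η η| ≤ ‖A‖ * ‖η‖ * ‖η‖ := A.le_opNorm₂ η η
  have a4 : |β * A η η| ≤ ‖Q‖ * ‖η‖ / Q η η * ‖ζ‖ * (‖A‖ * ‖η‖ * ‖η‖) := by
    rw [abs_mul]; exact mul_le_mul hβ2 a3 (abs_nonneg _) (by positivity)
  have a5 : |A ζ η + A η ζ - β * A η η| ≤
      (2 * (‖A‖ * ‖η‖) + ‖Q‖ * ‖η‖ / Q η η * (‖A‖ * ‖η‖ * ‖η‖)) * ‖ζ‖ := by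
    have := abs_sub (A ζ η + A η ζ) (β * A η η)
    have := abs_add_le (A ζ η) (A η ζ)
    linarith
  have a6 := mul_le_mul_of_nonneg_left a5 (abs_nonneg β)
  rw [← abs_mul] at a6
  have a7 := neg_abs_le (β * (A ζ η + A η ζ - β * A η η))
  have a8 : (2 * (‖A‖ * ‖η‖) + ‖Q‖ * ‖η‖ / Q η η * (‖A‖ * ‖η‖ * ‖η‖)) / Q η η * ‖ζ‖ * |Q η ζ| =
      |β| * ((2 * (‖A‖ * ‖η‖) + ‖Q‖ * ‖η‖ / Q η η * (‖A‖ * ‖η‖ * ‖η‖)) * ‖ζ‖) := by
    rw [hβ1]; ring
  rw [a8]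
  linarith

theorem GoodB.seg (symm : ∀ u v, Q u v = Q v u) (pos : ∀ u, u ≠ 0 → 0 < Q u u) {f : E → ℝ}
    {w₀ η : E} {B₀ B₁ B : E →L[ℝ] E →L[ℝ] ℝ} (h0 : GoodB Q f w₀ B₀) (h1 : GoodB Q f (w₀ + η) B₁)
    {t : ℝ} (ht : t ∈ Ioo (0 : ℝ) 1)
    (hB : ∀ ξ, Q ξ η = 0 → B ξ ξ ≤ (1 - t) * B₀ ξ ξ + t * B₁ ξ ξ) : GoodB Q f (w₀ + t • η) B := by
  obtain ⟨δ₀, hδ₀, h0⟩ := h0
  obtain ⟨δ₁, hδ₁, h1⟩ := h1
  obtain ⟨C, hC, hA⟩ := exists_loss_sg symm pos ((1 - t) • B₀ + t • B₁ - B) η (fun ξ hξ => by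
    have := hB ξ hξ
    simp only [sub_apply, add_apply,
      smul_apply, smul_eq_mul]
    linarith)
  simp only [sub_apply, add_apply,
    smul_apply, smul_eq_mul] at hA
  set δ := min δ₀ δ₁ with hδ
  have hδp : 0 < δ := lt_min hδ₀ hδ₁
  set N := ‖B₁ - B₀‖ + 1 with hN
  have hNp : 0 < N := by positivity
  set σ₀ := min (min t (1 - t)) (δ / N) with hσ₀
  have hσp : 0 < σ₀ := lt_min (lt_min ht.1 (sub_pos.mpr ht.2)) (div_pos hδp hNp)
  have hσt : σ₀ ≤ t := (min_le_left _ _).trans (min_le_left _ _)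
  have hσt' : σ₀ ≤ 1 - t := (min_le_left _ _).trans (min_le_right _ _)
  have hσN : σ₀ * N ≤ δ := (le_div_iff₀ hNp).mp (min_le_right _ _)
  have hsm : ∀ᶠ ζ in 𝓝 (0 : E), C * ‖ζ‖ < σ₀ := by
    have hc : Continuous fun ζ : E => C * ‖ζ‖ := by fun_prop
    exact hc.continuousAt.eventually_lt continuousAt_const (by simpa using hσp)
  refine ⟨δ / 2, half_pos hδp, ?_⟩
  filter_upwards [h0, h1, hsm] with ζ h0 h1 hsm
  obtain ⟨σ, hσ, hσQ⟩ : ∃ σ : ℝ, |σ| = σ₀ ∧ σ * Q η ζ = σ₀ * |Q η ζ| := by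
    rcases le_total 0 (Q η ζ) with h | h
    · exact ⟨σ₀, abs_of_pos hσp, by rw [abs_of_nonneg h]⟩
    · exact ⟨-σ₀, by rw [abs_neg, abs_of_pos hσp], by rw [abs_of_nonpos h]; ring⟩
  have hζ2 := sq_nonneg ‖ζ‖
  have h0' : Q w₀ ζ + B₀ ζ ζ / 2 + δ * ‖ζ‖ ^ 2 ≤ f ζ := by
    have := mul_le_mul_of_nonneg_right (min_le_left δ₀ δ₁) hζ2
    linarith
  have h1' : Q w₀ ζ + Q η ζ + B₁ ζ ζ / 2 + δ * ‖ζ‖ ^ 2 ≤ f ζ := by
    have := mul_le_mul_of_nonneg_right (min_le_right δ₀ δ₁) hζ2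
    simp only [map_add, add_apply] at h1
    linarith
  have hσ1 := le_abs_self σ
  have hσ2 := neg_abs_le σ
  have a0 := mul_le_mul_of_nonneg_left h0' (show 0 ≤ 1 - t - σ by linarith)
  have a1 := mul_le_mul_of_nonneg_left h1' (show 0 ≤ t + σ by linarith)
  have b1 : |B₁ ζ ζ - B₀ ζ ζ| ≤ N * ‖ζ‖ ^ 2 := by
    have h2 := (B₁ - B₀).le_opNorm₂ ζ ζ
    simp only [sub_apply, Real.norm_eq_abs] at h2
    rw [hN]
    linarith
  have b2 : |σ * (B₁ ζ ζ - B₀ ζ ζ)| ≤ δ * ‖ζ‖ ^ 2 := by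
    rw [abs_mul, hσ]
    have h2 := mul_le_mul_of_nonneg_left b1 hσp.le
    have h3 := mul_le_mul_of_nonneg_right hσN hζ2
    linarith
  have b3 := neg_abs_le (σ * (B₁ ζ ζ - B₀ ζ ζ))
  have b4 := hA ζ
  have b5 := mul_le_mul_of_nonneg_right hsm.le (abs_nonneg (Q η ζ))
  have b6 := mul_nonneg hσp.le (abs_nonneg (Q η ζ))
  simp only [map_add, map_smul, add_apply, smul_apply,
    smul_eq_mul]
  linarith

variable [FiniteDimensional ℝ E]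

theorem isCompact_convexHull {S : Set E} (hS : IsCompact S) : IsCompact (convexHull ℝ S) := by
  have key : convexHull ℝ S = ⋃ k ∈ Finset.range (Module.finrank ℝ E + 2),
      (fun q : (Fin k → ℝ) × (Fin k → E) => ∑ i, q.1 i • q.2 i) ''
        (stdSimplex ℝ (Fin k) ×ˢ (univ.pi fun _ => S)) := by
    apply Subset.antisymm
    · intro x hx
      obtain ⟨ι, _, z, w, hz, hind, hw, hw1, hx⟩ := eq_pos_convex_span_of_mem_convexHull hx
      have hcard : Fintype.card ι < Module.finrank ℝ E + 2 := by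
        have h1 := hind.card_le_finrank_succ
        have h2 := Submodule.finrank_le (vectorSpan ℝ (range z))
        omega
      let e := (Fintype.equivFin ι).symm
      simp only [mem_iUnion]
      refine ⟨Fintype.card ι, Finset.mem_range.mpr hcard, (fun i => w (e i), fun i => z (e i)),
        ⟨⟨fun i => (hw _).le, ?_⟩, fun i _ => hz ⟨_, rfl⟩⟩, ?_⟩
      · rw [← hw1]; exact e.sum_comp w
      · rw [← hx]; exact e.sum_comp fun i => w i • z i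
    · simp only [iUnion_subset_iff]
      rintro k _ x ⟨⟨w, z⟩, ⟨hw, hz⟩, rfl⟩
      exact (convex_convexHull ℝ S).sum_mem (fun i _ => hw.1 i) hw.2
        fun i _ => subset_convexHull ℝ S (hz i trivial)
  rw [key]
  refine (Finset.range _).isCompact_biUnion fun k _ => IsCompact.image ?_ (by fun_prop)
  exact (isCompact_stdSimplex ℝ _).prod (isCompact_univ_pi fun _ => hS)

theorem mem_convexHull_iff_support (pos : ∀ u, u ≠ 0 → 0 < Q u u) {S : Set E} (hS : IsCompact S)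
    {u : E} : u ∈ convexHull ℝ S ↔ ∀ ζ, ∃ s ∈ S, Q u ζ ≤ Q s ζ := by
  constructor
  · intro hu ζ
    have hne : S.Nonempty := convexHull_nonempty_iff.mp ⟨u, hu⟩
    have hc : Continuous fun s => Q s ζ := by fun_prop
    obtain ⟨s, hs, hmax⟩ := hS.exists_isMaxOn hne hc.continuousOn
    refine ⟨s, hs, ?_⟩
    have hconv : Convex ℝ {v : E | Q.flip ζ v ≤ Q s ζ} :=
      convex_halfSpace_le (Q.flip ζ).toLinearMap.isLinear _
    exact convexHull_min (fun v hv => hmax hv) hconv hu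
  · intro h
    by_contra hu
    obtain ⟨g, c, hg, hc⟩ := geometric_hahn_banach_closed_point (convex_convexHull ℝ S)
      (isCompact_convexHull hS).isClosed hu
    let T : E →ₗ[ℝ] Module.Dual ℝ E :=
      (ContinuousLinearMap.coeLM ℝ).comp Q.flip.toLinearMap
    have hT : ∀ ζ v, T ζ v = Q v ζ := fun _ _ => rfl
    have hinj : Function.Injective T := by
      rw [injective_iff_map_eq_zero]
      intro ζ hζ
      by_contra h0
      have h1 := pos ζ h0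
      rw [← hT, hζ] at h1
      exact lt_irrefl _ h1
    obtain ⟨ζ, hζ⟩ := (LinearMap.injective_iff_surjective_of_finrank_eq_finrank
      (Subspace.dual_finrank_eq (K := ℝ) (V := E)).symm).mp hinj g.toLinearMap
    obtain ⟨s, hs, hle⟩ := h ζ
    rw [← hT, ← hT, hζ] at hle
    have h2 := hg s (subset_convexHull ℝ S hs)
    have h3 : g u ≤ g s := hle
    linarith

end Vale.Agent.P234
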