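import Mathlib

/-!
# Uniform Taylor estimates; the partial Hessian  (TASK; calculus in normed spaces)

`exists_unif`: `f` is `Cⁿ` on the open set `U = {z | ContDiffAt ℝ n f z}` (`ContDiffAt.eventually`) which
contains the compact set `K' = {(a, 0, u)}`; take `ρ` with `cthickening ρ K' ⊆ U`
(`IsCompact.exists_cthickening_subset_open`), bound `iteratedFDeriv ℝ n f` on that compact set.
`taylor2`, `taylor3`: one-variable Taylor formula for `t ↦ f (a, t • ζ, u)` on `[0,1]`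
(`taylor_mean_remainder_lagrange`, or two/three applications of the mean value inequality);
its `k`-th derivative is `iteratedFDeriv ℝ k f (a, t•ζ, u) (fun _ => (0, ζ, 0))`.
`hess f a u ξ η = fderiv (fderiv f) (a,0,u) (0,ξ,0) (0,η,0)` when `f` is `C²` at `(a,0,u)`.
`hess_convex`: `B σ = hess f a (u + σ • η) ξ ξ` is `C²` near each `s ∈ [0,1]`; `iteratedDeriv2_eq` at
nearby `σ`; `convexOn_of_deriv2_nonneg` (or `convexOn_of_hasDerivWithinAt2_nonneg`).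
-/

namespace Vale.Agent.P234

open scoped ContDiff Topology
open Set Filter

variable {E : Type*} [NormedAddCommGroup E] [NormedSpace ℝ E] [FiniteDimensional ℝ E]

/-- The Hessian in the middle variable at `0`. -/
noncomputable def hess (f : E × E × E → ℝ) (a u : E) : E →L[ℝ] E →L[ℝ] ℝ :=
  fderiv ℝ (fderiv ℝ fun ζ => f (a, ζ, u)) 0

theorem exists_unif {n : ℕ} {f : E × E × E → ℝ} {K : Set (E × E)} (hK : IsCompact K)
    (hf : ∀ p ∈ K, ContDiffAt ℝ n f (p.1, 0, p.2)) : ∃ C ρ : ℝ, 0 < C ∧ 0 < ρ ∧ ∀ p ∈ K, ∀ ζ,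
      ‖ζ‖ ≤ ρ → ContDiffAt ℝ n f (p.1, ζ, p.2) ∧ ‖iteratedFDeriv ℝ n f (p.1, ζ, p.2)‖ ≤ C := by
  have hU : IsOpen {z | ContDiffAt ℝ n f z} :=
    isOpen_iff_mem_nhds.mpr fun z hz => ContDiffAt.eventually hz (by simp)
  have hK' : IsCompact ((fun p : E × E => (p.1, (0 : E), p.2)) '' K) := hK.image (by fun_prop)
  obtain ⟨ρ, hρ, hsub⟩ := hK'.exists_cthickening_subset_open hU (by
    rintro _ ⟨p, hp, rfl⟩
    exact hf p hp)
  have hc : ContinuousOn (iteratedFDeriv ℝ n f)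
      (Metric.cthickening ρ ((fun p : E × E => (p.1, (0 : E), p.2)) '' K)) := fun z hz =>
    (ContDiffAt.continuousAt_iteratedFDeriv (show ContDiffAt ℝ n f z from hsub hz)
      le_rfl).continuousWithinAt
  have : ProperSpace (E × E × E) := FiniteDimensional.proper_real _
  obtain ⟨C, hC⟩ := (hK'.cthickening (r := ρ)).exists_bound_of_continuousOn hc
  refine ⟨|C| + 1, ρ, by positivity, hρ, fun p hp ζ hζ => ?_⟩
  have hmem : (p.1, ζ, p.2) ∈ Metric.cthickening ρ ((fun p : E × E => (p.1, (0 : E), p.2)) '' K) := by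
    refine Metric.mem_cthickening_of_dist_le _ (p.1, 0, p.2) ρ _ ⟨p, hp, rfl⟩ ?_
    simpa [Prod.dist_eq] using hζ
  exact ⟨hsub hmem, (hC _ hmem).trans (by linarith [le_abs_self C])⟩

theorem taylor_gen_ty {F : Type*} [NormedAddCommGroup F] [NormedSpace ℝ F] {n : ℕ} {f : F → ℝ}
    {x y : F} {C : ℝ} (hf : ∀ t ∈ Icc (0 : ℝ) 1, ContDiffAt ℝ (n + 1 : ℕ) f (x + t • y) ∧
      ‖iteratedFDeriv ℝ (n + 1) f (x + t • y)‖ ≤ C) :
    |f (x + y) - ∑ k ∈ Finset.range (n + 1), (k.factorial : ℝ)⁻¹ * iteratedFDeriv ℝ k f x fun _ => y| ≤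
      C * ‖y‖ ^ (n + 1) := by
  have h := map_add_eq_sum_add_integral_iteratedFDeriv (f := f) (x := x) (y := y) (n := n)
    fun t ht => by exact_mod_cast (hf t ht).1
  simp only [smul_eq_mul (n.factorial : ℝ)⁻¹, smul_eq_mul (_ : ℝ)⁻¹] at h
  rw [h, add_sub_cancel_left, abs_mul]
  have h1 : ‖∫ t in (0 : ℝ)..1, (1 - t) ^ n • iteratedFDeriv ℝ (n + 1) f (x + t • y) fun _ => y‖ ≤
      C * ‖y‖ ^ (n + 1) * |1 - 0| := by
    refine intervalIntegral.norm_integral_le_of_norm_le_const fun t ht => ?_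
    rw [uIoc_of_le zero_le_one] at ht
    have h2 := (iteratedFDeriv ℝ (n + 1) f (x + t • y)).le_opNorm fun _ => y
    rw [Finset.prod_const, Finset.card_univ, Fintype.card_fin] at h2
    have h3 := mul_le_mul_of_nonneg_right (hf t ⟨ht.1.le, ht.2⟩).2 (pow_nonneg (norm_nonneg y) (n + 1))
    have h4 : ‖(1 - t) ^ n‖ ≤ 1 := by
      rw [norm_pow]
      exact pow_le_one₀ (norm_nonneg _) (by rw [Real.norm_eq_abs, abs_le]; constructor <;> linarith [ht.1, ht.2])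
    rw [norm_smul]
    exact (mul_le_of_le_one_left (norm_nonneg _) h4).trans (h2.trans h3)
  rw [sub_zero, abs_one, mul_one, Real.norm_eq_abs] at h1
  refine le_trans (mul_le_of_le_one_left (abs_nonneg _) ?_) h1
  rw [abs_of_nonneg (by positivity)]
  exact inv_le_one_of_one_le₀ (by exact_mod_cast n.factorial_pos)

omit [FiniteDimensional ℝ E] in
theorem taylor_mid_ty {n : ℕ} {f : E × E × E → ℝ} {a u ζ : E} {C ρ : ℝ}
    (hf : ∀ ζ, ‖ζ‖ ≤ ρ → ContDiffAt ℝ (n + 1 : ℕ) f (a, ζ, u) ∧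
      ‖iteratedFDeriv ℝ (n + 1) f (a, ζ, u)‖ ≤ C) (hζ : ‖ζ‖ ≤ ρ) :
    |f (a, ζ, u) - ∑ k ∈ Finset.range (n + 1),
      (k.factorial : ℝ)⁻¹ * iteratedFDeriv ℝ k f (a, 0, u) fun _ => (0, ζ, 0)| ≤ C * ‖ζ‖ ^ (n + 1) := by
  have h := taylor_gen_ty (f := f) (x := (a, 0, u)) (y := (0, ζ, 0)) (n := n) (C := C) fun t ht => by
    have e : ((a, 0, u) : E × E × E) + t • (0, ζ, 0) = (a, t • ζ, u) := by simp
    rw [e]
    refine hf _ (le_trans ?_ hζ)
    rw [norm_smul, Real.norm_of_nonneg ht.1]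
    exact mul_le_of_le_one_left (norm_nonneg _) ht.2
  have e1 : ((a, 0, u) : E × E × E) + (0, ζ, 0) = (a, ζ, u) := by simp
  have e2 : ‖((0, ζ, 0) : E × E × E)‖ = ‖ζ‖ := by simp
  rwa [e1, e2] at h

omit [FiniteDimensional ℝ E] in
theorem hasFDerivAt_mid_ty (a ζ u : E) : HasFDerivAt (fun ζ : E => ((a, ζ, u) : E × E × E))
    ((0 : E →L[ℝ] E).prod ((ContinuousLinearMap.id ℝ E).prod 0)) ζ :=
  (hasFDerivAt_const a ζ).prodMk ((hasFDerivAt_id ζ).prodMk (hasFDerivAt_const u ζ))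

omit [FiniteDimensional ℝ E] in
theorem fderiv_mid_ty {G : Type*} [NormedAddCommGroup G] [NormedSpace ℝ G] {f : E × E × E → G}
    {a ζ u : E} (hf : DifferentiableAt ℝ f (a, ζ, u)) (ξ : E) :
    fderiv ℝ (fun ζ => f (a, ζ, u)) ζ ξ = fderiv ℝ f (a, ζ, u) (0, ξ, 0) := by
  have h : HasFDerivAt (fun ζ => f (a, ζ, u)) _ ζ := hf.hasFDerivAt.comp ζ (hasFDerivAt_mid_ty a ζ u)
  rw [h.fderiv]
  rfl

omit [FiniteDimensional ℝ E] in
theorem contDiffAt_mid_ty {n : ℕ∞ω} {f : E × E × E → ℝ} {a u : E} (hf : ContDiffAt ℝ n f (a, 0, u)) :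
    ContDiffAt ℝ n (fun ζ => f (a, ζ, u)) 0 :=
  hf.comp (f := fun ζ : E => (a, ζ, u)) 0 (by fun_prop)

omit [FiniteDimensional ℝ E] in
theorem hess_eq_ty {f : E × E × E → ℝ} {a u : E} (hf : ContDiffAt ℝ 2 f (a, 0, u)) (ξ η : E) :
    hess f a u ξ η = fderiv ℝ (fderiv ℝ f) (a, 0, u) (0, ξ, 0) (0, η, 0) := by
  have h1 : DifferentiableAt ℝ (fderiv ℝ fun ζ => f (a, ζ, u)) 0 :=
    ((contDiffAt_mid_ty hf).fderiv_right (m := 1) (by norm_num)).differentiableAt (by simp)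
  have h2 : DifferentiableAt ℝ (fderiv ℝ f) (a, 0, u) :=
    (hf.fderiv_right (m := 1) (by norm_num)).differentiableAt (by simp)
  have h3 : (fun ζ => fderiv ℝ (fun ζ => f (a, ζ, u)) ζ η) =ᶠ[𝓝 0]
      fun ζ => fderiv ℝ f (a, ζ, u) (0, η, 0) := by
    have hc : ContinuousAt (fun ζ : E => ((a, ζ, u) : E × E × E)) 0 := by fun_prop
    filter_upwards [hc.eventually (hf.eventually (by simp))] with ζ hζ
    exact fderiv_mid_ty (hζ.differentiableAt (by simp)) η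
  have h4 := h1.hasFDerivAt.clm_apply (hasFDerivAt_const η 0)
  have h5 := (h2.hasFDerivAt.comp 0 (hasFDerivAt_mid_ty a 0 u)).clm_apply
    (hasFDerivAt_const ((0, η, 0) : E × E × E) 0)
  have h6 := congrArg (fun L => L ξ) ((h4.congr_of_eventuallyEq h3.symm).unique h5)
  simpa [hess] using h6

theorem taylor2 {f : E × E × E → ℝ} {K : Set (E × E)} (hK : IsCompact K)
    (hf : ∀ p ∈ K, ContDiffAt ℝ 2 f (p.1, 0, p.2)) : ∃ C ρ : ℝ, 0 < C ∧ 0 < ρ ∧ ∀ p ∈ K, ∀ ζ,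
      ‖ζ‖ ≤ ρ → |f (p.1, ζ, p.2) - f (p.1, 0, p.2) - fderiv ℝ (fun ζ => f (p.1, ζ, p.2)) 0 ζ| ≤
        C * ‖ζ‖ ^ 2 := by
  obtain ⟨C, ρ, hC, hρ, h⟩ := exists_unif (n := 1 + 1) hK hf
  refine ⟨C, ρ, hC, hρ, fun p hp ζ hζ => ?_⟩
  have h1 := taylor_mid_ty (h p hp) hζ
  simp only [Finset.sum_range_succ, Finset.range_zero, Finset.sum_empty, Nat.factorial_zero,
    Nat.factorial_one, Nat.cast_one, inv_one, one_mul, zero_add, iteratedFDeriv_zero_apply,
    iteratedFDeriv_one_apply] at h1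
  rw [fderiv_mid_ty ((hf p hp).differentiableAt (by simp)), sub_sub]
  exact h1

theorem taylor3 {f : E × E × E → ℝ} {K : Set (E × E)} (hK : IsCompact K)
    (hf : ∀ p ∈ K, ContDiffAt ℝ 3 f (p.1, 0, p.2)) : ∃ C ρ : ℝ, 0 < C ∧ 0 < ρ ∧ ∀ p ∈ K, ∀ ζ,
      ‖ζ‖ ≤ ρ → |f (p.1, ζ, p.2) - f (p.1, 0, p.2) - fderiv ℝ (fun ζ => f (p.1, ζ, p.2)) 0 ζ -
        hess f p.1 p.2 ζ ζ / 2| ≤ C * ‖ζ‖ ^ 3 := by
  obtain ⟨C, ρ, hC, hρ, h⟩ := exists_unif (n := 2 + 1) hK hf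
  refine ⟨C, ρ, hC, hρ, fun p hp ζ hζ => ?_⟩
  have h1 := taylor_mid_ty (h p hp) hζ
  simp only [Finset.sum_range_succ, Finset.range_zero, Finset.sum_empty, Nat.factorial_zero,
    Nat.factorial_one, Nat.factorial_two, Nat.cast_one, inv_one, one_mul, zero_add,
    iteratedFDeriv_zero_apply, iteratedFDeriv_one_apply, iteratedFDeriv_two_apply,
    Nat.cast_ofNat] at h1
  rw [fderiv_mid_ty ((hf p hp).differentiableAt (by simp)),
    hess_eq_ty ((hf p hp).of_le (by norm_num)), sub_sub, sub_sub, ← add_assoc, div_eq_inv_mul]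
  exact h1

theorem peano2 {h : E → ℝ} (hh : ContDiffAt ℝ 2 h 0) {κ : ℝ} (hκ : 0 < κ) : ∀ᶠ ζ in 𝓝 (0 : E),
    |h ζ - h 0 - fderiv ℝ h 0 ζ - fderiv ℝ (fderiv ℝ h) 0 ζ ζ / 2| ≤ κ * ‖ζ‖ ^ 2 := by
  have hs := hh.isSymmSndFDerivAt (by simp)
  have h1 : HasFDerivAt (fderiv ℝ h) (fderiv ℝ (fderiv ℝ h) 0) 0 :=
    ((hh.fderiv_right (m := 1) (by norm_num)).differentiableAt (by simp)).hasFDerivAt
  generalize hB : fderiv ℝ (fderiv ℝ h) 0 = B at *
  have hs' : ∀ v w, B v w = B w v := fun v w => by rw [← hB]; exact hs v w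
  have h2 := (h1.isLittleO.def hκ).and (hh.eventually (by simp))
  obtain ⟨r, hr, h3⟩ := Metric.eventually_nhds_iff_ball.mp h2
  filter_upwards [Metric.ball_mem_nhds 0 hr] with ζ hζ
  have hsub : Metric.closedBall (0 : E) ‖ζ‖ ⊆ Metric.ball 0 r :=
    Metric.closedBall_subset_ball (by simpa using hζ)
  have h4 : ∀ z ∈ Metric.closedBall (0 : E) ‖ζ‖, HasFDerivWithinAt
      (fun z => h z - fderiv ℝ h 0 z - B z z / 2) (fderiv ℝ h z - fderiv ℝ h 0 - B z)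
      (Metric.closedBall 0 ‖ζ‖) z := by
    intro z hz
    have a1 := ((h3 z (hsub hz)).2.differentiableAt (by simp)).hasFDerivAt
    have a2 := ((B.hasFDerivAt (x := z)).clm_apply (hasFDerivAt_id z)).mul_const (2 : ℝ)⁻¹
    have a3 := (a1.sub (fderiv ℝ h 0).hasFDerivAt).sub a2
    refine (a3.congr_fderiv ?_).hasFDerivWithinAt
    ext v
    simp [hs' v z]
    ring
  have h5 := (convex_closedBall (0 : E) ‖ζ‖).norm_image_sub_le_of_norm_hasFDerivWithin_le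
    (C := κ * ‖ζ‖) h4 (fun z hz => by
      have a1 := (h3 z (hsub hz)).1
      rw [sub_zero] at a1
      exact a1.trans (mul_le_mul_of_nonneg_left (by simpa using hz) hκ.le))
    (x := 0) (y := ζ) (by simp) (by simp)
  simp only [map_zero, sub_zero, zero_div, Real.norm_eq_abs] at h5
  rw [show h ζ - h 0 - fderiv ℝ h 0 ζ - B ζ ζ / 2 = h ζ - fderiv ℝ h 0 ζ - B ζ ζ / 2 - h 0 by ring,
    sq, ← mul_assoc]
  exact h5

theorem contDiffAt_hess {f : E × E × E → ℝ} {a u : E} (hf : ContDiffAt ℝ 4 f (a, 0, u)) :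
    ContDiffAt ℝ 2 (fun p : E × E => hess f p.1 p.2) (a, u) := by
  have h1 : ContDiffAt ℝ 3 (fun q : (E × E) × E => fderiv ℝ (fun ζ => f (q.1.1, ζ, q.1.2)) q.2)
      ((a, u), 0) := by
    refine ContDiffAt.fderiv (f := fun (q : (E × E) × E) ζ => f (q.1.1, ζ, q.1.2)) (n := 4) ?_
      contDiffAt_snd (by norm_num)
    exact hf.comp (f := fun r : ((E × E) × E) × E => (r.1.1.1, r.2, r.1.1.2)) (((a, u), 0), 0)
      (by fun_prop)
  exact ContDiffAt.fderiv (f := fun (p : E × E) ζ => fderiv ℝ (fun ζ => f (p.1, ζ, p.2)) ζ)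
    (g := fun _ => 0) (n := 3) h1 contDiffAt_const (by norm_num)

theorem hess_symm {f : E × E × E → ℝ} {a u : E} (hf : ContDiffAt ℝ 2 f (a, 0, u)) (ξ η : E) :
    hess f a u ξ η = hess f a u η ξ := by
  exact (contDiffAt_mid_ty hf).isSymmSndFDerivAt (by simp) ξ η

theorem iteratedDeriv2_eq {h : E → ℝ} (hh : ContDiffAt ℝ 2 h 0) (ξ : E) :
    iteratedDeriv 2 (fun t : ℝ => h (t • ξ)) 0 = fderiv ℝ (fderiv ℝ h) 0 ξ ξ := by
  have hl : ∀ t : ℝ, HasDerivAt (fun t : ℝ => t • ξ) ξ t := fun t => by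
    simpa using (hasDerivAt_id t).smul_const ξ
  have h0 : (0 : ℝ) • ξ = 0 := zero_smul _ _
  have h1 : deriv (fun t : ℝ => h (t • ξ)) =ᶠ[𝓝 0] fun t => fderiv ℝ h (t • ξ) ξ := by
    have hc : Tendsto (fun t : ℝ => t • ξ) (𝓝 0) (𝓝 0) := by
      have := (hl 0).continuousAt.tendsto
      rwa [h0] at this
    filter_upwards [hc.eventually (hh.eventually (by simp))] with t ht
    exact (HasFDerivAt.comp_hasDerivAt (f := fun t : ℝ => t • ξ) t
      (ht.differentiableAt (by simp)).hasFDerivAt (hl t)).deriv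
  have h2 : HasFDerivAt (fderiv ℝ h) (fderiv ℝ (fderiv ℝ h) 0) 0 :=
    ((hh.fderiv_right (m := 1) (by norm_num)).differentiableAt (by simp)).hasFDerivAt
  have h3 : HasDerivAt (fun t : ℝ => fderiv ℝ h (t • ξ)) (fderiv ℝ (fderiv ℝ h) 0 ξ) 0 :=
    HasFDerivAt.comp_hasDerivAt_of_eq (f := fun t : ℝ => t • ξ) 0 h2 (hl 0) h0.symm
  have h4 := h3.clm_apply (hasDerivAt_const 0 ξ)
  rw [iteratedDeriv_succ, iteratedDeriv_one, h1.deriv_eq, h4.deriv, map_zero, add_zero]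

theorem differentiableAt_deriv_ty {g : ℝ → ℝ} {s : ℝ} (hg : ContDiffAt ℝ 2 g s) :
    DifferentiableAt ℝ (deriv g) s :=
  ((hg.fderiv_right (m := 1) (by norm_num)).differentiableAt (by simp)).clm_apply
    (differentiableAt_const (1 : ℝ))

theorem hess_convex {f : E × E × E → ℝ} {a u η ξ : E}
    (hf : ∀ s ∈ Icc (0 : ℝ) 1, ContDiffAt ℝ 4 f (a, 0, u + s • η))
    (h : ∀ s ∈ Icc (0 : ℝ) 1, iteratedDeriv 2 (fun σ : ℝ => iteratedDeriv 2
      (fun t : ℝ => f (a, t • ξ, u + s • η + σ • η)) 0) 0 ≤ 0) :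
    ConvexOn ℝ (Icc (0 : ℝ) 1) fun s => -hess f a (u + s • η) ξ ξ := by
  have hB : ∀ s ∈ Icc (0 : ℝ) 1, ContDiffAt ℝ 2 (fun s : ℝ => hess f a (u + s • η) ξ ξ) s := by
    intro s hs
    have h1 : ContDiffAt ℝ 2 (fun s : ℝ => hess f a (u + s • η)) s :=
      (contDiffAt_hess (hf s hs)).comp (f := fun s : ℝ => (a, u + s • η)) s (by fun_prop)
    exact (h1.clm_apply contDiffAt_const).clm_apply contDiffAt_const
  refine (concaveOn_of_deriv2_nonpos (convex_Icc 0 1)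
    (fun s hs => (hB s hs).continuousAt.continuousWithinAt)
    (fun s hs => ((hB s (interior_subset hs)).differentiableAt (by simp)).differentiableWithinAt)
    (fun s hs => (differentiableAt_deriv_ty (hB s (interior_subset hs))).differentiableWithinAt)
    fun s hs => ?_).neg
  have hs' := interior_subset hs
  have h1 : (fun σ : ℝ => iteratedDeriv 2 (fun t : ℝ => f (a, t • ξ, u + s • η + σ • η)) 0) =ᶠ[𝓝 0]
      fun σ => hess f a (u + (s + σ) • η) ξ ξ := by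
    have hc : Tendsto (fun σ : ℝ => ((a, 0, u + s • η + σ • η) : E × E × E)) (𝓝 0)
        (𝓝 (a, 0, u + s • η)) := by
      have : ContinuousAt (fun σ : ℝ => ((a, 0, u + s • η + σ • η) : E × E × E)) 0 := by fun_prop
      simpa using this.tendsto
    filter_upwards [hc.eventually ((hf s hs').eventually (by simp))] with σ hσ
    rw [add_smul, ← add_assoc]
    exact iteratedDeriv2_eq (contDiffAt_mid_ty (hσ.of_le (by norm_num))) ξ
  have h2 := h s hs'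
  rw [h1.iteratedDeriv_eq, iteratedDeriv_comp_const_add 2 (fun s : ℝ => hess f a (u + s • η) ξ ξ) s]
    at h2
  rw [← iteratedDeriv_eq_iterate]
  simpa using h2

omit [FiniteDimensional ℝ E] in
theorem seg_bounds_ty {G : Type*} [NormedAddCommGroup G] [NormedSpace ℝ G] {H : E × E → G}
    {K : Set (E × E)} (hK : IsCompact K) (hH : ∀ p ∈ K, ContDiffAt ℝ 2 H p) : ∃ L > 0, ∀ a u η : E,
      (∀ s ∈ Icc (0 : ℝ) 1, (a, u + s • η) ∈ K) → ∃ B1 B2 : ℝ → G,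
        ∀ s ∈ Icc (0 : ℝ) 1, HasDerivAt (fun s : ℝ => H (a, u + s • η)) (B1 s) s ∧
          HasDerivAt B1 (B2 s) s ∧ ‖B1 s‖ ≤ L * ‖η‖ ∧ ‖B2 s‖ ≤ L * ‖η‖ ^ 2 := by
  have hH1 : ∀ p ∈ K, ContDiffAt ℝ 1 (fderiv ℝ H) p :=
    fun p hp => (hH p hp).fderiv_right (by norm_num)
  obtain ⟨C₁, h1⟩ := hK.exists_bound_of_continuousOn
    fun p hp => (hH1 p hp).continuousAt.continuousWithinAt
  obtain ⟨C₂, h2⟩ := hK.exists_bound_of_continuousOn (f := fderiv ℝ (fderiv ℝ H))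
    fun p hp => ((hH1 p hp).fderiv_right (m := 0) (by norm_num)).continuousAt.continuousWithinAt
  refine ⟨|C₁| + |C₂| + 1, by positivity, fun a u η hm => ⟨fun s => fderiv ℝ H (a, u + s • η) (0, η),
    fun s => fderiv ℝ (fderiv ℝ H) (a, u + s • η) (0, η) (0, η), fun s hs => ?_⟩⟩
  have hl : HasDerivAt (fun s : ℝ => ((a, u + s • η) : E × E)) (0, η) s := by
    have := ((hasDerivAt_id s).smul_const η).const_add u
    exact (hasDerivAt_const s a).prodMk (by simpa using this)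
  have hn : ‖((0, η) : E × E)‖ = ‖η‖ := by simp
  refine ⟨?_, ?_, ?_, ?_⟩
  · exact HasFDerivAt.comp_hasDerivAt (f := fun s : ℝ => ((a, u + s • η) : E × E)) s
      ((hH _ (hm s hs)).differentiableAt (by simp)).hasFDerivAt hl
  · have h3 : HasDerivAt (fun s : ℝ => fderiv ℝ H (a, u + s • η))
        (fderiv ℝ (fderiv ℝ H) (a, u + s • η) (0, η)) s :=
      HasFDerivAt.comp_hasDerivAt (f := fun s : ℝ => ((a, u + s • η) : E × E)) s
        ((hH1 _ (hm s hs)).differentiableAt (by simp)).hasFDerivAt hl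
    have h4 := h3.clm_apply (hasDerivAt_const s ((0, η) : E × E))
    rwa [map_zero, add_zero] at h4
  · refine ((fderiv ℝ H (a, u + s • η)).le_opNorm _).trans ?_
    rw [hn]
    refine mul_le_mul_of_nonneg_right ((h1 _ (hm s hs)).trans ?_) (norm_nonneg _)
    linarith [le_abs_self C₁, abs_nonneg C₂]
  · refine ((fderiv ℝ (fderiv ℝ H) (a, u + s • η)).le_opNorm₂ _ _).trans ?_
    rw [hn, mul_assoc, ← sq]
    refine mul_le_mul_of_nonneg_right ((h2 _ (hm s hs)).trans ?_) (sq_nonneg _)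
    linarith [le_abs_self C₂, abs_nonneg C₁]

/-- Bounds for the first two derivatives of the Hessian along segments. -/
theorem hess_bounds {f : E × E × E → ℝ} {K : Set (E × E)} (hK : IsCompact K)
    (hf : ∀ p ∈ K, ContDiffAt ℝ 4 f (p.1, 0, p.2)) : ∃ L > 0, ∀ a u η : E,
      (∀ s ∈ Icc (0 : ℝ) 1, (a, u + s • η) ∈ K) → ∃ B1 B2 : ℝ → E →L[ℝ] E →L[ℝ] ℝ,
        ∀ s ∈ Icc (0 : ℝ) 1, HasDerivAt (fun s : ℝ => hess f a (u + s • η)) (B1 s) s ∧
          HasDerivAt B1 (B2 s) s ∧ ‖B1 s‖ ≤ L * ‖η‖ ∧ ‖B2 s‖ ≤ L * ‖η‖ ^ 2 := by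
  exact seg_bounds_ty (H := fun p : E × E => hess f p.1 p.2) hK fun p hp => contDiffAt_hess (hf p hp)

end Vale.Agent.P234
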