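import Mathlib

/-!
# A first contact point is not conjugate  (TASK; convexity in the plane)

Write `w s = w₀ + s • η`, `ω = w t`.
(A) If some `ξ` has `Q ξ η = 0`, `Q k ξ ≠ 0`: the segment `(1-δ) • w s`, `s ∈ [0,1]`, lies in `I` (`hJ`), so
by `conv` `B ((1-δ)•ω) ξ ξ ≤ (1-t) B ((1-δ)•w₀) ξ ξ + t B ((1-δ)•(w₀+η)) ξ ξ`, which converges as `δ → 0⁺`
(continuity of `B` at `w₀`, `w₀ + η`); this contradicts `blow`.
(B) Otherwise `η ≠ 0` (else take `ξ = k`) and `k = μ • η`, `μ ≠ 0` (apply the assumption to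
`ξ = k - (Q k η / Q η η) • η`), so `Q η ω = 0`.  If `ω = 0`, `blow` with `ξ = k` fails for small `δ`.
Else put `r = Q ω ω > 0`, `n = Q η η > 0`, fix `K > 0`, `m = K δ`, `P = (1-δ) • ω`, `d = η - m • ω`,
`ξ = ω + (m r / n) • η` (`Q ξ d = 0`), `L s = P + s • d = λ • (ω + (s/λ) • η)`, `λ = 1 - δ - m s`.
Let `s_f = (1-δ) m r / (n + m² r)`, so `L s_f = λ_f • ξ` with `λ_f > 0`; `a = t / 2`.  For small `δ`,
`L s ∈ I` for all `s ∈ [-a, s_f]`: if `s > -1/K` then `λ < 1` and `t + s/λ ∈ [0,1]` (`hJ`); on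
`[-a, -1/K]` use that `L s → w (t + s)` uniformly and `{w (t+s)}` is a compact subset of the open set `I`.
`G s = B (L s) ξ ξ` is convex on `[-a, s_f]` (`conv` with `u = L (-a)`, direction `(s_f + a) • d`),
`G s_f = -Q ξ ξ = -(r + m² r² / n)` (`rad`), `G 0 = -r + (m r / n)² B P η η` (`rad`, `Bsymm`) with
`B P η η ≥ c₁ / δ - C₁`, `c₁ = c μ² n²`.  Convexity at `0` between `-a` and `s_f` gives
`G (-a) ≥ G 0 + a (G 0 - G s_f) / s_f ≥ -r + a K c₁ r / (2 n) - o(1)`, while `G (-a) → B (w (t - a)) ω ω`;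
choose `K` large at the start.
-/

namespace Vale.Agent.P234

open scoped Topology
open Set Filter

section TiltAux

variable {E : Type*} [NormedAddCommGroup E] [NormedSpace ℝ E] {Q : E →L[ℝ] E →L[ℝ] ℝ} {I J : Set E}
  {B : E → E →L[ℝ] E →L[ℝ] ℝ}

theorem tilt_seg (conv : ∀ u η ξ : E, (∀ s ∈ Icc (0 : ℝ) 1, u + s • η ∈ I) → Q ξ η = 0 →
      ConvexOn ℝ (Icc (0 : ℝ) 1) fun s => B (u + s • η) ξ ξ) {u η ξ : E}
    (h : ∀ s ∈ Icc (0 : ℝ) 1, u + s • η ∈ I) (hq : Q ξ η = 0) {τ : ℝ} (hτ : τ ∈ Icc (0 : ℝ) 1) :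
    B (u + τ • η) ξ ξ ≤ (1 - τ) * B u ξ ξ + τ * B (u + η) ξ ξ := by
  have := (conv u η ξ h hq).2 (left_mem_Icc.2 zero_le_one) (right_mem_Icc.2 zero_le_one)
    (sub_nonneg.2 hτ.2) hτ.1 (by ring)
  simpa using this

theorem tilt_no_blow {f : ℝ → ℝ} {M c₁ C₁ : ℝ} (hf : Tendsto f (𝓝[>] 0) (𝓝 M))
    (h : ∀ᶠ δ in 𝓝[>] (0 : ℝ), c₁ / δ - C₁ ≤ f δ) : c₁ ≤ 0 := by
  have h1 : Tendsto (fun δ : ℝ => δ) (𝓝[>] 0) (𝓝 0) := tendsto_nhdsWithin_of_tendsto_nhds tendsto_id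
  have h2 : Tendsto (fun δ => δ * (f δ + C₁)) (𝓝[>] 0) (𝓝 (0 * (M + C₁))) :=
    h1.mul (hf.add_const _)
  rw [zero_mul] at h2
  refine ge_of_tendsto h2 ?_
  filter_upwards [h, self_mem_nhdsWithin] with δ hδ hδ0
  have hδ0' : 0 < δ := hδ0
  rw [sub_le_iff_le_add, div_le_iff₀ hδ0'] at hδ
  linarith

theorem tilt_tendsto (hI : IsOpen I) (hB : ContinuousOn B I) {u ξ : ℝ → E} (hu : ContinuousAt u 0)
    (hξ : ContinuousAt ξ 0) (h0 : u 0 ∈ I) :
    Tendsto (fun δ => B (u δ) (ξ δ) (ξ δ)) (𝓝[>] 0) (𝓝 (B (u 0) (ξ 0) (ξ 0))) := by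
  have h1 : ContinuousAt (fun δ => B (u δ)) 0 :=
    ContinuousAt.comp (hB.continuousAt (hI.mem_nhds h0)) hu
  exact tendsto_nhdsWithin_of_tendsto_nhds ((h1.clm_apply hξ).clm_apply hξ)

theorem tilt_real {r n a l ε G X X₀ : ℝ} (hn : 0 < n) (ha : 0 < a) (hl0 : 0 < l) (hl1 : l < 1)
    (hε : 0 < ε) (g3 : 0 ≤ X₀) (hX : X₀ ≤ X)
    (h : -r + ε ^ 2 * X ≤ (1 - a / (l * ε + a)) * G + a / (l * ε + a) * -(r + ε ^ 2 * n)) :
    -r + a * (ε * X₀) ≤ G := by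
  have hσ : 0 < l * ε := by positivity
  have hsa : 0 < l * ε + a := by positivity
  have g1 : (l * ε + a) * (-r + ε ^ 2 * X) ≤ l * ε * G + a * -(r + ε ^ 2 * n) := by
    refine (mul_le_mul_of_nonneg_left h hsa.le).trans (le_of_eq ?_)
    field_simp
    ring
  have g4 : 0 ≤ X := g3.trans hX
  refine le_of_mul_le_mul_left ?_ hσ
  have g5 : 0 ≤ l * ε * (ε ^ 2 * X) := by positivity
  have g6 : 0 ≤ a * (ε ^ 2 * n) := by positivity
  have g7 : a * ε ^ 2 * (l * X₀) ≤ a * ε ^ 2 * X := by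
    refine mul_le_mul_of_nonneg_left ?_ (by positivity)
    nlinarith
  linarith

theorem tilt_real2 {a b K δ l ε y : ℝ} (ha : 0 < a) (hb : 0 < b) (hK : 0 < K) (hδ : 0 < δ)
    (hδ2 : δ < 1 / 2) (hεb : ε < b) (hl0 : 0 < l) (hl : l * (1 + ε * (K * δ)) = 1 - δ)
    (hy : y ∈ Icc (-a) (l * ε)) (hy1 : -(1 / K) < y) :
    0 < 1 - δ - K * δ * y ∧ 1 - δ - K * δ * y < 1 ∧ -(2 * a) * (1 - δ - K * δ * y) ≤ y ∧
      y ≤ b * (1 - δ - K * δ * y) := by
  have hm : 0 < K * δ := by positivity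
  have h3 : -1 < K * y := by
    have := mul_lt_mul_of_pos_left hy1 hK
    rwa [mul_neg, mul_one_div_cancel hK.ne'] at this
  have h4 : l ≤ 1 - δ - K * δ * y := by
    have := mul_le_mul_of_nonneg_left hy.2 hm.le
    linarith
  refine ⟨by linarith, by nlinarith, ?_, ?_⟩
  · rcases le_total 0 y with h5 | h5
    · nlinarith
    · have : 1 / 2 ≤ 1 - δ - K * δ * y := by nlinarith
      nlinarith [hy.1]
  · have h5 : l * ε ≤ l * b := by gcongr
    have h6 : b * l ≤ b * (1 - δ - K * δ * y) := by gcongr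
    linarith [hy.2]

theorem tilt_step (symm : ∀ u v, Q u v = Q v u)
    (Bsymm : ∀ u ∈ I, ∀ ξ η, B u ξ η = B u η ξ) (rad : ∀ u ∈ I, ∀ ξ, B u u ξ = -Q u ξ)
    (conv : ∀ u η ξ : E, (∀ s ∈ Icc (0 : ℝ) 1, u + s • η ∈ I) → Q ξ η = 0 →
      ConvexOn ℝ (Icc (0 : ℝ) 1) fun s => B (u + s • η) ξ ξ)
    {ω η : E} {a δ m ε l X₀ : ℝ} (ha : 0 < a) (hn : 0 < Q η η) (hq : Q ω η = 0) (hε : 0 < ε)
    (hδ0 : 0 < δ) (hδ : δ < 1) (hm : 0 < m) (hεn : ε * Q η η = m * Q ω ω) (hl0 : 0 < l)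
    (hl : l * (1 + ε * m) = 1 - δ) (mem : ∀ y ∈ Icc (-a) (l * ε), (1 - δ - m * y) • ω + y • η ∈ I)
    (g3 : 0 ≤ X₀) (hbl : X₀ ≤ B ((1 - δ) • ω) η η) :
    -Q ω ω + a * (ε * X₀) ≤ B ((1 - δ - m * (-a)) • ω + (-a) • η) (ω + ε • η) (ω + ε • η) := by
  have hq' : Q η ω = 0 := by rw [symm, hq]
  have hεm : 0 < l * (ε * m) := by positivity
  have hσ : 0 < l * ε := by positivity
  have hsa : 0 < l * ε + a := by positivity
  have hP : (1 - δ) • ω ∈ I := by simpa using mem 0 ⟨by linarith, hσ.le⟩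
  have hV : l • (ω + ε • η) ∈ I := by
    have := mem (l * ε) ⟨by linarith, le_rfl⟩
    rw [show 1 - δ - m * (l * ε) = l by linarith] at this
    rwa [smul_add, smul_smul]
  have hseg := tilt_seg conv (u := (1 - δ - m * (-a)) • ω + (-a) • η)
    (η := (l * ε + a) • (η - m • ω)) (ξ := ω + ε • η) (τ := a / (l * ε + a)) ?_ ?_
    ⟨by positivity, by rw [div_le_one hsa]; linarith⟩
  · have p1 : (1 - δ - m * (-a)) • ω + (-a) • η + (a / (l * ε + a)) • (l * ε + a) • (η - m • ω) =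
        (1 - δ) • ω := by
      rw [smul_smul, div_mul_cancel₀ _ hsa.ne']; module
    have p2 : (1 - δ - m * (-a)) • ω + (-a) • η + (l * ε + a) • (η - m • ω) = l • (ω + ε • η) := by
      rw [← hl]; module
    rw [p1, p2] at hseg
    have q1 : ∀ ξ, B ((1 - δ) • ω) ω ξ = -Q ω ξ := by
      intro ξ
      have := rad _ hP ξ
      rw [map_smul, map_smul] at this
      simp only [ContinuousLinearMap.smul_apply, smul_eq_mul] at this
      have h5 : (1 - δ) ≠ 0 := by linarith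
      apply mul_left_cancel₀ h5
      linarith
    have q2 : B ((1 - δ) • ω) (ω + ε • η) (ω + ε • η) = -Q ω ω + ε ^ 2 * B ((1 - δ) • ω) η η := by
      have := Bsymm _ hP η ω
      simp only [map_add, map_smul, ContinuousLinearMap.add_apply, ContinuousLinearMap.smul_apply,
        smul_eq_mul, this, q1, hq]
      ring
    have q3 : B (l • (ω + ε • η)) (ω + ε • η) (ω + ε • η) = -(Q ω ω + ε ^ 2 * Q η η) := by
      have := rad _ hV (ω + ε • η)
      rw [map_smul, map_smul] at this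
      simp only [ContinuousLinearMap.smul_apply, smul_eq_mul] at this
      have h5 : Q (ω + ε • η) (ω + ε • η) = Q ω ω + ε ^ 2 * Q η η := by
        simp only [map_add, map_smul, ContinuousLinearMap.add_apply,
          ContinuousLinearMap.smul_apply, smul_eq_mul, hq, hq']
        ring
      rw [h5] at this
      apply mul_left_cancel₀ hl0.ne'
      linarith
    rw [q2, q3] at hseg
    exact tilt_real hn ha hl0 (by linarith) hε g3 hbl hseg
  · intro s hs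
    have := mem (-a + s * (l * ε + a)) ⟨by nlinarith [hs.1], by nlinarith [hs.2]⟩
    convert this using 1
    module
  · simp only [map_add, map_sub, map_smul, ContinuousLinearMap.add_apply,
      ContinuousLinearMap.smul_apply, smul_eq_mul, hq, hq']
    linear_combination (l * ε + a) * hεn

/-- the tilted segment -/
theorem tilt_main (symm : ∀ u v, Q u v = Q v u) (hI : IsOpen I) (hB : ContinuousOn B I)
    (Bsymm : ∀ u ∈ I, ∀ ξ η, B u ξ η = B u η ξ) (rad : ∀ u ∈ I, ∀ ξ, B u u ξ = -Q u ξ)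
    (conv : ∀ u η ξ : E, (∀ s ∈ Icc (0 : ℝ) 1, u + s • η ∈ I) → Q ξ η = 0 →
      ConvexOn ℝ (Icc (0 : ℝ) 1) fun s => B (u + s • η) ξ ξ)
    {ω η : E} {a b c₁ C₁ K : ℝ} (ha : 0 < a) (hb : 0 < b) (hc : 0 < c₁) (hK : 0 < K)
    (hr : 0 < Q ω ω) (hn : 0 < Q η η) (hq : Q ω η = 0)
    (h0 : ∀ y ∈ Ico (-a) 0, ω + y • η ∈ I)
    (h1 : ∀ x y : ℝ, 0 < x → x < 1 → -(2 * a) * x ≤ y → y ≤ b * x → x • ω + y • η ∈ I)
    (blow : ∀ᶠ δ in 𝓝[>] (0 : ℝ), c₁ / δ - C₁ ≤ B ((1 - δ) • ω) η η) :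
    -Q ω ω + a * (K * Q ω ω / Q η η * c₁) ≤ B (ω + (-a) • η) ω ω := by
  have t1 := tilt_tendsto hI hB (u := fun δ : ℝ => (1 - δ - K * δ * (-a)) • ω + (-a) • η)
    (ξ := fun δ : ℝ => ω + (K * δ * Q ω ω / Q η η) • η) (by fun_prop) (by fun_prop)
    (by simpa using h0 (-a) ⟨le_rfl, by linarith⟩)
  simp only [sub_zero, mul_zero, zero_mul, one_smul, zero_div, zero_smul, add_zero] at t1
  have t2 : Tendsto (fun δ : ℝ => -Q ω ω + a * (K * Q ω ω / Q η η * (c₁ - C₁ * δ))) (𝓝[>] 0)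
      (𝓝 (-Q ω ω + a * (K * Q ω ω / Q η η * (c₁ - C₁ * 0)))) :=
    tendsto_nhdsWithin_of_tendsto_nhds (Continuous.tendsto (by fun_prop) 0)
  rw [mul_zero, sub_zero] at t2
  refine le_of_tendsto_of_tendsto t2 t1 ?_
  have e1 : ∀ᶠ δ in 𝓝 (0 : ℝ), ∀ y ∈ Icc (-a) (-(1 / K)), (1 - δ - K * δ * y) • ω + y • η ∈ I := by
    refine isCompact_Icc.eventually_forall_of_forall_eventually fun y hy => ?_
    have hcont : Continuous fun p : ℝ × ℝ => (1 - p.1 - K * p.1 * p.2) • ω + p.2 • η := by fun_prop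
    refine hcont.continuousAt.eventually (hI.mem_nhds ?_)
    have : 0 < 1 / K := by positivity
    simpa using h0 y ⟨hy.1, by linarith [hy.2]⟩
  have e2 : ∀ᶠ δ in 𝓝 (0 : ℝ), K * δ * Q ω ω / Q η η < b :=
    ContinuousAt.eventually_lt (f := fun δ : ℝ => K * δ * Q ω ω / Q η η) (g := fun _ => b)
      (by fun_prop) (by fun_prop) (by simpa using hb)
  have e3 : ∀ᶠ δ in 𝓝 (0 : ℝ), C₁ * δ < c₁ :=
    ContinuousAt.eventually_lt (f := fun δ : ℝ => C₁ * δ) (g := fun _ => c₁) (by fun_prop)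
      (by fun_prop) (by simpa using hc)
  have e4 : ∀ᶠ δ in 𝓝 (0 : ℝ), δ < 1 / 2 := eventually_lt_nhds (by norm_num)
  filter_upwards [blow, self_mem_nhdsWithin, nhdsWithin_le_nhds e1, nhdsWithin_le_nhds e2,
    nhdsWithin_le_nhds e3, nhdsWithin_le_nhds e4] with δ hbl hδ f1 f2 f3 f4
  have hδ0 : 0 < δ := hδ
  have g2 : K * Q ω ω / Q η η * (c₁ - C₁ * δ) = K * δ * Q ω ω / Q η η * (c₁ / δ - C₁) := by
    field_simp
  have hε0 : 0 < K * δ * Q ω ω / Q η η := by positivity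
  have hεn : K * δ * Q ω ω / Q η η * Q η η = K * δ * Q ω ω := by field_simp
  rw [g2]
  generalize K * δ * Q ω ω / Q η η = ε at f2 hε0 hεn ⊢
  have hεm : 0 < 1 + ε * (K * δ) := by positivity
  have hl : (1 - δ) / (1 + ε * (K * δ)) * (1 + ε * (K * δ)) = 1 - δ := by field_simp
  have hl0 : 0 < (1 - δ) / (1 + ε * (K * δ)) := div_pos (by linarith) hεm
  refine tilt_step symm Bsymm rad conv ha hn hq hε0 hδ0 (by linarith) (by positivity) hεn hl0 hl
    (fun y hy => ?_) (by rw [sub_nonneg, le_div_iff₀ hδ0]; exact f3.le) hbl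
  by_cases hy1 : y ≤ -(1 / K)
  · exact f1 y ⟨hy.1, hy1⟩
  · obtain ⟨k1, k2, k3, k4⟩ := tilt_real2 ha hb hK hδ0 f4 f2 hl0 hl hy (not_le.1 hy1)
    exact h1 _ _ k1 k2 k3 k4

end TiltAux

theorem tilt {E : Type*} [NormedAddCommGroup E] [NormedSpace ℝ E] {Q : E →L[ℝ] E →L[ℝ] ℝ}
    (symm : ∀ u v, Q u v = Q v u) (pos : ∀ u, u ≠ 0 → 0 < Q u u) {I J : Set E} (hI : IsOpen I)
    (hJ : ∀ u ∈ J, ∀ c : ℝ, 0 ≤ c → c < 1 → c • u ∈ I) {B : E → E →L[ℝ] E →L[ℝ] ℝ}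
    (hB : ContinuousOn B I) (Bsymm : ∀ u ∈ I, ∀ ξ η, B u ξ η = B u η ξ)
    (rad : ∀ u ∈ I, ∀ ξ, B u u ξ = -Q u ξ)
    (conv : ∀ u η ξ : E, (∀ s ∈ Icc (0 : ℝ) 1, u + s • η ∈ I) → Q ξ η = 0 →
      ConvexOn ℝ (Icc (0 : ℝ) 1) fun s => B (u + s • η) ξ ξ)
    {w₀ η : E} {t : ℝ} (ht : t ∈ Ioo (0 : ℝ) 1) (h0 : ∀ s ∈ Ico 0 t, w₀ + s • η ∈ I)
    (h1 : w₀ + η ∈ I) (hJ' : ∀ s ∈ Icc (0 : ℝ) 1, w₀ + s • η ∈ J) {k : E} (hk : k ≠ 0)
    (hkw : Q k (w₀ + t • η) = 0) {c C : ℝ} (hc : 0 < c)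
    (blow : ∀ᶠ δ in 𝓝[>] (0 : ℝ), ∀ ξ,
      c * Q k ξ ^ 2 / δ - C * ‖ξ‖ ^ 2 ≤ B ((1 - δ) • (w₀ + t • η)) ξ ξ) : False := by
  have hw₀ : w₀ ∈ I := by simpa using h0 0 ⟨le_rfl, ht.1⟩
  by_cases hA : ∃ ξ, Q ξ η = 0 ∧ Q k ξ ≠ 0
  · obtain ⟨ξ, hξ, hkξ⟩ := hA
    have t1 := tilt_tendsto hI hB (u := fun δ : ℝ => (1 - δ) • w₀) (ξ := fun _ => ξ)
      (by fun_prop) (by fun_prop) (by simpa using hw₀)
    have t2 := tilt_tendsto hI hB (u := fun δ : ℝ => (1 - δ) • w₀ + (1 - δ) • η) (ξ := fun _ => ξ)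
      (by fun_prop) (by fun_prop) (by simpa using h1)
    have := tilt_no_blow (c₁ := c * Q k ξ ^ 2) (C₁ := C * ‖ξ‖ ^ 2)
      ((t1.const_mul (1 - t)).add (t2.const_mul t)) ?_
    · have h2 : 0 < c * Q k ξ ^ 2 := by positivity
      linarith
    · filter_upwards [blow, Ioo_mem_nhdsGT (zero_lt_one' ℝ)] with δ hδ hδ1
      refine (hδ ξ).trans ?_
      have := tilt_seg conv (u := (1 - δ) • w₀) (η := (1 - δ) • η) (ξ := ξ) (τ := t) ?_
        (by simp [hξ]) ⟨ht.1.le, ht.2.le⟩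
      · rwa [smul_comm t, ← smul_add] at this
      · intro s hs
        rw [smul_comm s, ← smul_add]
        exact hJ _ (hJ' s hs) _ (by linarith [hδ1.2]) (by linarith [hδ1.1])
  · push Not at hA
    have hη : η ≠ 0 := by
      rintro rfl
      exact (pos k hk).ne' (hA k (by simp))
    have hn := pos η hη
    obtain ⟨μ, hμ⟩ : ∃ μ : ℝ, μ * Q η η = Q k η := ⟨Q k η / Q η η, by field_simp⟩
    have hkη : k = μ • η := by
      by_contra hne
      have h2 : Q (k - μ • η) η = 0 := by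
        simp only [map_sub, map_smul, ContinuousLinearMap.sub_apply, ContinuousLinearMap.smul_apply,
          smul_eq_mul]
        linarith
      have h3 := hA _ h2
      have h4 := pos _ (sub_ne_zero.2 hne)
      have h5 : Q (k - μ • η) (k - μ • η) = Q k (k - μ • η) - μ * Q (k - μ • η) η := by
        rw [symm (k - μ • η) η]
        simp only [map_sub (Q), map_smul (Q), ContinuousLinearMap.sub_apply,
          ContinuousLinearMap.smul_apply, smul_eq_mul]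
      rw [h5, h2, h3] at h4
      simp at h4
    have hμ0 : μ ≠ 0 := by
      rintro rfl
      exact hk (by simpa using hkη)
    set ω := w₀ + t • η with hω
    have hq : Q ω η = 0 := by
      rw [hkη, map_smul] at hkw
      simp only [ContinuousLinearMap.smul_apply, smul_eq_mul, mul_eq_zero, hμ0, false_or] at hkw
      rw [symm, hkw]
    have hkη0 : Q k η ≠ 0 := by rw [← hμ]; positivity
    have hc₁ : 0 < c * Q k η ^ 2 := by positivity
    have blow' : ∀ᶠ δ in 𝓝[>] (0 : ℝ), c * Q k η ^ 2 / δ - C * ‖η‖ ^ 2 ≤ B ((1 - δ) • ω) η η :=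
      blow.mono fun δ hδ => hδ η
    by_cases hω0 : ω = 0
    · rw [hω0] at blow'
      simp only [smul_zero] at blow'
      linarith [tilt_no_blow tendsto_const_nhds blow']
    · have hr := pos ω hω0
      have ht2 : 0 < t / 2 := by linarith [ht.1]
      set M := B (ω + (-(t / 2)) • η) ω ω
      have := tilt_main symm hI hB Bsymm rad conv (a := t / 2) (b := 1 - t)
        (K := (|M| + Q ω ω + 1) * Q η η / (Q ω ω * (c * Q k η ^ 2) * (t / 2))) ht2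
        (by linarith [ht.2]) hc₁ (by positivity) hr hn hq ?_ ?_ blow'
      · have e : t / 2 * ((|M| + Q ω ω + 1) * Q η η / (Q ω ω * (c * Q k η ^ 2) * (t / 2)) * Q ω ω /
            Q η η * (c * Q k η ^ 2)) = |M| + Q ω ω + 1 := by
          have := ht.1.ne'
          field_simp
        rw [e] at this
        linarith [le_abs_self M]
      · intro y hy
        have := h0 (t + y) ⟨by linarith [hy.1, ht.1], by linarith [hy.2]⟩
        rwa [add_smul, ← add_assoc] at this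
      · intro x y hx hx1 hy1 hy2
        have := hJ _ (hJ' (t + y / x) ⟨?_, ?_⟩) x hx.le hx1
        · rw [add_smul, ← add_assoc, smul_add, smul_smul, mul_div_cancel₀ _ hx.ne'] at this
          exact this
        · have : -t ≤ y / x := by rw [le_div_iff₀ hx]; linarith
          linarith
        · have : y / x ≤ 1 - t := by rw [div_le_iff₀ hx]; linarith
          linarith

end Vale.Agent.P234
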